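import Mathlib

/-! The superstring algorithm: definitions. -/

namespace Vale.Agent.P333

variable {α β : Type}

/-- An element of `l` maximising `f`. -/
def amax (f : β → ℕ) (d : β) (l : List β) : β :=
  l.foldl (fun m x => if f m < f x then x else m) (l.headD d)

/-- An element of `l` minimising `f`. -/
def amin (f : β → ℕ) (d : β) (l : List β) : β :=
  l.foldl (fun m x => if f x < f m then x else m) (l.headD d)

/-- All ways to single out one element. -/
def splits (l : List β) : List (List β × β × List β) :=
  (List.range l.length).flatMap fun i =>
    ((l.drop i).take 1).map fun x => (l.take i, x, l.drop (i + 1))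

/-- All initial segments of the members. -/
def pfs (l : List (List α)) : List (List α) :=
  l.flatMap fun z => (List.range (z.length + 1)).map fun t => z.take t

/-- String, overlap with the predecessor, tree address. -/
abbrev Item (α : Type) : Type := List α × ℕ × List α

/-- String, context length, order of the group. -/
abbrev Ent (α : Type) : Type := List α × ℕ × List (List α)

variable [DecidableEq α]

/-- Longest common initial segment. -/
def lcp (z y : List α) : ℕ := Nat.findGreatest (fun t => z.take t <+: y) z.length

/-- Longest proper overlap. -/
def ov (a b : List α) : ℕ :=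
  Nat.findGreatest (fun t => b.take t <:+ a) (min (a.length - 1) b.length)

/-- Longest start of `b` that ends `p`. -/
def sov (b p : List α) : ℕ := Nat.findGreatest (fun t => b.take t <:+ p) b.length

/-- Removal of redundant strings. -/
def pre (S : List (List α)) : List (List α) :=
  S.foldl (fun acc x => if x = [] ∨ ∃ u ∈ acc, x <:+: u then acc
    else x :: acc.filter fun u => ¬ u <:+: x) []

/-- The context of an entry is available. -/
def tight (e : Ent α) (L : List (List α)) : Prop := ∃ u ∈ [] :: L, e.1.take e.2.1 <:+: u

instance (e : Ent α) (L : List (List α)) : Decidable (tight e L) := by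
  unfold tight; infer_instance

/-- Add one more group. -/
def ext (E : List (Ent α)) (L : List (List α)) : List (List α) :=
  L ++ ((E.filter fun e => e.1 ∉ L ∧ tight e L).take 1).flatMap fun e => e.2.2

/-- Closure. -/
def cl (E : List (Ent α)) (L : List (List α)) : List (List α) := (ext E)^[E.length] L

/-- A group without available entry. -/
def free (E : List (Ent α)) : List (Ent α) :=
  (E.filter fun f => ∀ e ∈ E, e.1 ∈ f.2.2 →
    ¬ tight e ((E.map fun x => x.1).filter fun u => u ∉ f.2.2)).take 1

/-- One step of the primal dual method. -/
def estep (E : List (Ent α)) : List (Ent α) :=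
  if ∀ e ∈ E, e.1 ∈ cl E [] then E
  else if free E = [] then
    E.map fun e => (e.1, e.2.1, (cl E e.2.2).filter fun v => ∃ f ∈ E, f.1 = v ∧ e.1 ∈ cl E f.2.2)
  else E.map fun e =>
    (e.1, if e.1 ∈ (free E).flatMap fun f => f.2.2 then e.2.1 - 1 else e.2.1, e.2.2)

/-- The cheapest order. -/
def order (S : List (List α)) : List (List α) :=
  cl (estep^[S.flatten.length + S.length * S.length] (S.map fun b => (b, b.length, [b]))) []

/-- Attach one string to the tree. -/
def bstep (W : List (List α × List α)) (b : List α) : List (List α × List α) :=
  (b, amax (sov b) [] (pfs ([] :: W.map fun q => q.2)) ++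
    b.drop (sov b (amax (sov b) [] (pfs ([] :: W.map fun q => q.2))))) :: W

/-- The tree. -/
def tree (S : List (List α)) : List (List α × List α) := (order S).foldl bstep []

/-- Last string. -/
def lastS (p : List α) (l : List (Item α)) : List α := (l.map fun x => x.1).getLastD p

/-- First string. -/
def headS (l : List (Item α)) : List α := (l.map fun x => x.1).headD []

/-- Set the first overlap. -/
def setH (h : ℕ) (l : List (Item α)) : List (Item α) :=
  ((l.take 1).map fun x => (x.1, h, x.2.2)) ++ l.drop 1

/-- Moves of the greedy cycle cover. -/
def gcand (G : List (List (Item α)) × List (List (Item α))) :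
    List (ℕ × List (List (Item α)) × List (List (Item α))) :=
  (splits G.1).flatMap fun s =>
    (ov (lastS [] s.2.1) (headS s.2.1), s.1 ++ s.2.2,
      setH (ov (lastS [] s.2.1) (headS s.2.1)) s.2.1 :: G.2) ::
    (splits (s.1 ++ s.2.2)).map fun r =>
      (ov (lastS [] s.2.1) (headS r.2.1),
        (s.2.1 ++ setH (ov (lastS [] s.2.1) (headS r.2.1)) r.2.1) :: (r.1 ++ r.2.2), G.2)

/-- One greedy move. -/
def gstep (G : List (List (Item α)) × List (List (Item α))) :
    List (List (Item α)) × List (List (Item α)) :=
  (amax (fun c => c.1) (0, G) (gcand G)).2

/-- The greedy cycle cover. -/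
def cover (W : List (List α × List α)) : List (List (Item α)) :=
  (gstep^[W.length] (W.map fun q => [(q.1, 0, q.2)], [])).2

/-- All choices of an item, with its cycle opened there. -/
def mcand (C : List (List (Item α))) : List (Item α × List (Item α) × List (List (Item α))) :=
  (splits C).flatMap fun s => (splits s.2.1).map fun r => (r.2.1, r.2.2 ++ r.1, s.1 ++ s.2.2)

/-- Move an address below `A`. -/
def mov (A Y : List α) (k : ℕ) (z : List α) : List α :=
  A.take (Nat.findGreatest (fun j => (Y.take (lcp z Y)).drop k <:+ A.take j) A.length) ++
    z.drop (lcp z Y)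

/-- Readdressing for a merge. -/
def fm (A Y : List α) (k : ℕ) (z : List α) : List α :=
  if lcp A Y < lcp z Y then mov A Y k z else z

/-- Readdressing after output. -/
def fp (X A Y : List α) (k : ℕ) (z : List α) : List α :=
  X ++ (if Y <+: z then z else mov A Y k z).drop Y.length

/-- Change the address of an item. -/
def up (F : List α → List α) (x : Item α) : Item α := (x.1, x.2.1, F x.2.2)

/-- Merge or output. -/
def act (X : List α) (b a : Item α) (M : List (Item α)) (R : List (List (Item α)))
    (Y : List α) (k : ℕ) : List α × List (List (Item α)) :=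
  if Y <+: a.2.2 then
    (b.2.2 ++ M.flatMap fun x => x.1.drop x.2.1,
      R.map fun c => c.map (up (fp (b.2.2 ++ M.flatMap fun x => x.1.drop x.2.1) a.2.2 Y k)))
  else
    (X, ((M.dropLast ++ [(a.1 ++ b.1.drop b.2.1, a.2.1, b.2.2)]) :: R).map fun c =>
      c.map (up (fm a.2.2 Y k)))

/-- Carry out a choice. -/
def go (X : List α) (c : Item α × List (Item α) × List (List (Item α))) :
    List α × List (List (Item α)) :=
  act X c.1 (c.2.1.getLastD c.1) c.2.1 c.2.2
    (c.1.2.2.take (c.1.2.2.length - c.1.1.length + c.1.2.1)) (c.1.2.2.length - c.1.1.length)

/-- One step of the main loop. -/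
def mstep (s : List α × List (List (Item α))) : List α × List (List (Item α)) :=
  if s.2 = [] then s
  else go s.1 (amin (fun c => c.1.2.2.length - c.1.1.length) (([], 0, []), [], []) (mcand s.2))

/-- The algorithm. -/
def alg (S : List (List α)) : List α :=
  (mstep^[(pre S).length] ([], cover (tree (pre S)))).1

end Vale.Agent.P333
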