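import Vale.Agent.P333.Alg

/-! Basic facts. -/

namespace Vale.Agent.P333

open List

variable {α β : Type}

lemma fold_max (f : β → ℕ) (l : List β) (d : β) :
    l.foldl (fun m x => if f m < f x then x else m) d ∈ d :: l ∧
      ∀ x ∈ d :: l, f x ≤ f (l.foldl (fun m x => if f m < f x then x else m) d) := by
  induction l generalizing d with
  | nil => simp
  | cons a l ih =>
    rw [foldl_cons]
    obtain ⟨h1, h2⟩ := ih (if f d < f a then a else d)
    have h3 := h2 _ (mem_cons_self ..)
    constructor
    · rcases mem_cons.1 h1 with h | h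
      · rw [h]; split_ifs <;> simp
      · simp [h]
    · intro x hx
      rcases mem_cons.1 hx with rfl | hx
      · refine le_trans ?_ h3; split_ifs <;> omega
      · rcases mem_cons.1 hx with rfl | hx
        · refine le_trans ?_ h3; split_ifs <;> omega
        · exact h2 _ (mem_cons_of_mem _ hx)

lemma fold_min (f : β → ℕ) (l : List β) (d : β) :
    l.foldl (fun m x => if f x < f m then x else m) d ∈ d :: l ∧
      ∀ x ∈ d :: l, f (l.foldl (fun m x => if f x < f m then x else m) d) ≤ f x := by
  induction l generalizing d with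
  | nil => simp
  | cons a l ih =>
    rw [foldl_cons]
    obtain ⟨h1, h2⟩ := ih (if f a < f d then a else d)
    have h3 := h2 _ (mem_cons_self ..)
    constructor
    · rcases mem_cons.1 h1 with h | h
      · rw [h]; split_ifs <;> simp
      · simp [h]
    · intro x hx
      rcases mem_cons.1 hx with rfl | hx
      · refine le_trans h3 ?_; split_ifs <;> omega
      · rcases mem_cons.1 hx with rfl | hx
        · refine le_trans h3 ?_; split_ifs <;> omega
        · exact h2 _ (mem_cons_of_mem _ hx)

lemma amax_mem (f : β → ℕ) (d : β) {l : List β} (h : l ≠ []) : amax f d l ∈ l := by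
  obtain ⟨a, l, rfl⟩ := exists_cons_of_ne_nil h
  have := (fold_max f (a :: l) a).1
  simpa [amax] using this

lemma amax_mem' (f : β → ℕ) (d : β) (l : List β) : amax f d l ∈ d :: l := by
  by_cases h : l = []
  · subst h; simp [amax]
  · exact mem_cons_of_mem _ (amax_mem f d h)

lemma amax_le (f : β → ℕ) (d : β) {l : List β} {x : β} (h : x ∈ l) : f x ≤ f (amax f d l) :=
  (fold_max f l _).2 x (mem_cons_of_mem _ h)

lemma amin_mem (f : β → ℕ) (d : β) {l : List β} (h : l ≠ []) : amin f d l ∈ l := by
  obtain ⟨a, l, rfl⟩ := exists_cons_of_ne_nil h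
  have := (fold_min f (a :: l) a).1
  simpa [amin] using this

lemma amin_le (f : β → ℕ) (d : β) {l : List β} {x : β} (h : x ∈ l) : f (amin f d l) ≤ f x :=
  (fold_min f l _).2 x (mem_cons_of_mem _ h)

lemma mem_splits {l P Q : List β} {x : β} : (P, x, Q) ∈ splits l ↔ l = P ++ x :: Q := by
  simp only [splits, mem_flatMap, mem_range, mem_map, Prod.mk.injEq]
  constructor
  · rintro ⟨i, hi, y, hy, rfl, rfl, rfl⟩
    rw [drop_eq_getElem_cons hi] at hy
    simp only [take_succ_cons, take_zero, mem_singleton] at hy
    rw [hy, ← drop_eq_getElem_cons hi, take_append_drop]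
  · rintro rfl
    refine ⟨P.length, by simp, x, by simp, by simp, rfl, ?_⟩
    simp

lemma mem_splits' {l : List β} {s : List β × β × List β} :
    s ∈ splits l ↔ l = s.1 ++ s.2.1 :: s.2.2 := mem_splits

lemma mem_pfs {l : List (List α)} {p : List α} : p ∈ pfs l ↔ ∃ z ∈ l, p <+: z := by
  simp only [pfs, mem_flatMap, mem_map, mem_range]
  constructor
  · rintro ⟨z, hz, t, _, rfl⟩
    exact ⟨z, hz, take_prefix _ _⟩
  · rintro ⟨z, hz, h⟩
    exact ⟨z, hz, p.length, Nat.lt_succ_of_le h.length_le, (prefix_iff_eq_take.1 h).symm⟩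

variable [DecidableEq α]

/-- Number of nodes of the tree spanned by the addresses. -/
def nodes (l : List (List α)) : ℕ := (pfs l).toFinset.card

lemma nodes_one (z : List α) : nodes [z] = z.length + 1 := by
  unfold nodes
  rw [toFinset_card_of_nodup]
  · simp [pfs]
  · simp only [pfs, flatMap_cons, flatMap_nil, append_nil]
    refine Nodup.map_on (fun x hx y hy h => ?_) nodup_range
    have := congrArg length h
    simp only [mem_range, length_take] at *
    omega

lemma nodes_mono {l l' : List (List α)} (h : ∀ z ∈ l, ∃ z' ∈ l', z <+: z') :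
    nodes l ≤ nodes l' := by
  refine Finset.card_le_card fun p hp => ?_
  rw [mem_toFinset, mem_pfs] at *
  obtain ⟨z, hz, h1⟩ := hp
  obtain ⟨z', hz', h2⟩ := h z hz
  exact ⟨z', hz', h1.trans h2⟩

lemma len_lt_nodes {l : List (List α)} {z : List α} (h : z ∈ l) : z.length < nodes l := by
  have := nodes_mono (l := [z]) (l' := l) (by simpa using ⟨z, h, prefix_refl _⟩)
  rw [nodes_one] at this
  omega

lemma lcp_le (z y : List α) : lcp z y ≤ z.length := Nat.findGreatest_le _

lemma lcp_spec (z y : List α) : z.take (lcp z y) <+: y :=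
  Nat.findGreatest_spec (P := fun t => z.take t <+: y) (Nat.zero_le _) (by simp)

lemma le_lcp {z y p : List α} (h1 : p <+: z) (h2 : p <+: y) : p.length ≤ lcp z y :=
  Nat.le_findGreatest h1.length_le (by rwa [← prefix_iff_eq_take.1 h1])

lemma lcp_le' (z y : List α) : lcp z y ≤ y.length := by
  have := (lcp_spec z y).length_le
  have := lcp_le z y
  simp only [length_take] at *
  omega

lemma lcp_take (z y : List α) : y.take (lcp z y) = z.take (lcp z y) := by
  have h := prefix_iff_eq_take.1 (lcp_spec z y)
  rw [length_take, min_eq_left (lcp_le z y)] at h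
  exact h.symm

lemma lcp_mono {p z : List α} (y : List α) (h : p <+: z) : lcp p y ≤ lcp z y := by
  have := le_lcp ((take_prefix (lcp p y) p).trans h) (lcp_spec p y)
  rwa [length_take, min_eq_left (lcp_le p y)] at this

lemma lcp_cut {z y r : List α} (h : r <+: z.drop (lcp z y)) :
    z.take (lcp z y) ++ r <+: z ∧ lcp (z.take (lcp z y) ++ r) y = lcp z y := by
  have h1 : z.take (lcp z y) ++ r <+: z := by
    conv_rhs => rw [← take_append_drop (lcp z y) z]
    exact (prefix_append_right_inj _).2 h
  refine ⟨h1, le_antisymm (lcp_mono y h1) ?_⟩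
  have := le_lcp (prefix_append (z.take (lcp z y)) r) (lcp_spec z y)
  rwa [length_take, min_eq_left (lcp_le z y)] at this

lemma lcp_lt {z y : List α} (h : ¬ y <+: z) : lcp z y < y.length := by
  refine lt_of_le_of_ne (lcp_le' z y) fun e => h ?_
  have := lcp_take z y
  rw [e, take_length] at this
  rw [this]
  exact take_prefix _ _

lemma iter_inv {σ : Type} (f : σ → σ) (I : σ → Prop) (h : ∀ s, I s → I (f s)) (s : σ) (hs : I s)
    (n : ℕ) : I (f^[n] s) := by
  induction n with
  | zero => exact hs
  | succ n ih => rw [Function.iterate_succ_apply']; exact h _ ih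

lemma iter_done {σ : Type} (f : σ → σ) (I D : σ → Prop) (μ : σ → ℕ) (h : ∀ s, I s → I (f s))
    (h1 : ∀ s, I s → D s → D (f s)) (h2 : ∀ s, I s → ¬ D s → μ (f s) < μ s) (n : ℕ) :
    ∀ s, I s → μ s ≤ n → D (f^[n] s) := by
  induction n with
  | zero =>
    intro s hs hn
    by_contra hd
    have := h2 s hs hd
    omega
  | succ n ih =>
    intro s hs hn
    by_cases hd : D s
    · exact (iter_inv f (fun s => I s ∧ D s) (fun s h' => ⟨h s h'.1, h1 s h'.1 h'.2⟩) s
        ⟨hs, hd⟩ _).2
    · have := h2 s hs hd
      exact ih (f s) (h s hs) (by omega)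

end Vale.Agent.P333
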