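import Vale.Agent.P333.Basic

/-! The cheapest order, by the primal dual method. -/

namespace Vale.Agent.P333

open List

variable {α : Type}

/-- The strings of `L` can be attached in turn at cost `k`. -/
def Cost : List (List α) → List (List α) → ℕ → Prop
  | _, [], _ => True
  | L0, b :: L, k => ∃ t j, t ≤ b.length ∧ (∃ u ∈ [] :: L0, b.take t <:+: u) ∧
      Cost (b :: L0) L j ∧ b.length - t + j ≤ k

lemma Cost.mono {L0 L1 L : List (List α)} {k j : ℕ} (h : Cost L0 L k) (h1 : L0 ⊆ L1)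
    (h2 : k ≤ j) : Cost L1 L j := by
  induction L generalizing L0 L1 k j with
  | nil => trivial
  | cons b L ih =>
    obtain ⟨t, i, a1, ⟨u, a2, a3⟩, a4, a5⟩ := h
    exact ⟨t, i, a1, ⟨u, cons_subset_cons _ h1 a2, a3⟩, ih a4 (cons_subset_cons _ h1) le_rfl,
      a5.trans h2⟩

lemma Cost.append {L0 P Q : List (List α)} {k j : ℕ} (h : Cost L0 P k) (h' : Cost (P ++ L0) Q j) :
    Cost L0 (P ++ Q) (k + j) := by
  induction P generalizing L0 k with
  | nil => exact h'.mono (Subset.refl _) (by omega)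
  | cons b P ih =>
    obtain ⟨t, i, a1, a2, a4, a5⟩ := h
    exact ⟨t, i + j, a1, a2, ih a4 (h'.mono perm_middle.symm.subset le_rfl), by omega⟩

/-- A reference solution. -/
def Ref (S : List (List α)) (ρ o : List α → ℕ) : Prop :=
  ∀ b ∈ S, o b ≤ b.length ∧ (o b = 0 ∨ ∃ u ∈ S, ρ u < ρ b ∧ b.take (o b) <:+: u)

/-- Its cost on a list. -/
def val (o : List α → ℕ) (L : List (List α)) : ℕ := (L.map fun c => c.length - o c).sum

/-- The table of entries. -/
def tab (S : List (List α)) (g : List α → ℕ) (sol : List α → List (List α)) : List (Ent α) :=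
  S.map fun b => (b, g b, sol b)

/-- The cost bound for an order of a group. -/
def Bd (ρ o g : List α → ℕ) (b : List α) (L : List (List α)) : Prop :=
  ∃ t k, L = b :: t ∧ Cost [b] t k ∧
    ∀ f ∈ L, (∀ c ∈ L, ρ f ≤ ρ c) → b.length - g b + k + g f ≤ val o L + o f

/-- Invariant. -/
structure EInv (S : List (List α)) (ρ o g : List α → ℕ) (sol : List α → List (List α)) :
    Prop where
  hd : ∀ b ∈ S, Bd ρ o g b (sol b)
  nd : ∀ b ∈ S, (sol b).Nodup
  sub : ∀ b ∈ S, sol b ⊆ S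
  grp : ∀ b ∈ S, ∀ c ∈ sol b, ∀ x, x ∈ sol c ↔ x ∈ sol b
  le : ∀ b ∈ S, g b ≤ b.length
  fea : ∀ b ∈ S, ∀ u ∈ S, u ∉ sol b → ∀ t ≤ b.length, b.take t <:+: u → t ≤ g b

/-- Unions of groups. -/
def GC (S : List (List α)) (sol : List α → List (List α)) (L : List (List α)) : Prop :=
  L.Nodup ∧ L ⊆ S ∧ ∀ b ∈ L, sol b ⊆ L

variable {S : List (List α)} {ρ o g : List α → ℕ} {sol : List α → List (List α)}

lemma EInv.self (h : EInv S ρ o g sol) {b : List α} (hb : b ∈ S) : b ∈ sol b := by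
  obtain ⟨t, _, e, _⟩ := h.hd b hb
  simp [e]

lemma EInv.gc (h : EInv S ρ o g sol) {b : List α} (hb : b ∈ S) : GC S sol (sol b) :=
  ⟨h.nd b hb, h.sub b hb, fun c hc x hx => (h.grp b hb c hc x).1 hx⟩

lemma GC.len {L : List (List α)} (h : GC S sol L) : L.length ≤ S.length :=
  (subperm_of_subset h.1 h.2.1).length_le

lemma EInv.low (h : EInv S ρ o g sol) (r : Ref S ρ o) {b : List α} {L : List (List α)} {x : ℕ}
    (h1 : L ⊆ S) (h2 : ∀ c ∈ L, sol c ⊆ L) (hb : b ∈ L)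
    (a2 : ∀ f ∈ L, (∀ c ∈ L, ρ f ≤ ρ c) → x + g f ≤ val o L + o f) : x ≤ val o L := by
  have m := amin_mem ρ b (ne_nil_of_mem hb)
  have m' := fun c => amin_le ρ b (l := L) (x := c)
  generalize amin ρ b L = f at *
  have a3 := a2 f m m'
  obtain ⟨r1, r2 | ⟨u, r2, r3, r4⟩⟩ := r f (h1 m)
  · omega
  · have := h.fea f (h1 m) u r2 (fun hu => by have := m' u (h2 f m hu); omega) _ r1 r4
    omega

lemma val_append (o : List α → ℕ) (L L' : List (List α)) :
    val o (L ++ L') = val o L + val o L' := by simp [val]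

variable [DecidableEq α]

omit [DecidableEq α] in
lemma tight.mono {e : Ent α} {L L' : List (List α)} (h : tight e L) (h1 : L ⊆ L') : tight e L' :=
  let ⟨u, a, b⟩ := h; ⟨u, cons_subset_cons _ h1 a, b⟩

lemma ext_cases (S : List (List α)) (g : List α → ℕ) (sol : List α → List (List α))
    (L : List (List α)) :
    (ext (tab S g sol) L = L ∧ ∀ b ∈ S, tight (b, g b, sol b) L → b ∈ L) ∨
      ∃ b ∈ S, b ∉ L ∧ tight (b, g b, sol b) L ∧ ext (tab S g sol) L = L ++ sol b := by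
  unfold ext
  rcases h : (tab S g sol).filter fun e => e.1 ∉ L ∧ tight e L with _ | ⟨e, r⟩
  · refine Or.inl ⟨by rw [h]; simp, fun b hb ht => ?_⟩
    by_contra hn
    exact filter_eq_nil_iff.1 h (b, g b, sol b) (mem_map_of_mem hb) (by simp [hn, ht])
  · have : e ∈ (tab S g sol).filter fun e => e.1 ∉ L ∧ tight e L := by
      rw [h]; exact mem_cons_self ..
    obtain ⟨h1, h2⟩ := mem_filter.1 this
    obtain ⟨b, hb, rfl⟩ := mem_map.1 h1
    have h2 := of_decide_eq_true h2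
    exact Or.inr ⟨b, hb, h2.1, h2.2, by rw [h]; simp⟩

omit [DecidableEq α] in
lemma GC.add (h : EInv S ρ o g sol) {L : List (List α)} (hL : GC S sol L) {b : List α}
    (hb : b ∈ S) (hn : b ∉ L) : GC S sol (L ++ sol b) := by
  refine ⟨hL.1.append (h.nd b hb) fun x h1 h2 => hn (hL.2.2 x h1 ?_),
    append_subset.2 ⟨hL.2.1, h.sub b hb⟩, fun c hc => ?_⟩
  · exact (h.grp b hb x h2 b).2 (h.self hb)
  · rcases mem_append.1 hc with hc | hc
    · exact subset_append_of_subset_left _ (hL.2.2 c hc)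
    · exact subset_append_of_subset_right _ ((h.gc hb).2.2 c hc)

lemma EInv.ind (h : EInv S ρ o g sol) (I : List (List α) → Prop) {L0 : List (List α)}
    (h0 : GC S sol L0) (h1 : I L0) (h2 : ∀ L b, GC S sol L → I L → b ∈ S → b ∉ L →
      tight (b, g b, sol b) L → I (L ++ sol b)) :
    GC S sol (cl (tab S g sol) L0) ∧ I (cl (tab S g sol) L0) := by
  refine iter_inv _ (fun L => GC S sol L ∧ I L) (fun L hL => ?_) _ ⟨h0, h1⟩ _
  rcases ext_cases S g sol L with ⟨e, _⟩ | ⟨b, a1, a2, a3, e⟩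
  · rw [e]; exact hL
  · rw [e]; exact ⟨hL.1.add h a1 a2, h2 L b hL.1 hL.2 a1 a2 a3⟩

lemma EInv.fix (h : EInv S ρ o g sol) {L0 : List (List α)} (h0 : GC S sol L0) :
    ∀ b ∈ S, tight (b, g b, sol b) (cl (tab S g sol) L0) → b ∈ cl (tab S g sol) L0 := by
  refine iter_done (ext (tab S g sol)) (GC S sol)
    (fun L => ∀ b ∈ S, tight (b, g b, sol b) L → b ∈ L) (fun L => S.length - L.length)
    (fun L hL => ?_) (fun L hL hd => ?_) (fun L hL hd => ?_) _ L0 h0 (by simp [tab])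
  · rcases ext_cases S g sol L with ⟨e, _⟩ | ⟨b, a1, a2, a3, e⟩
    · rw [e]; exact hL
    · rw [e]; exact hL.add h a1 a2
  · rcases ext_cases S g sol L with ⟨e, _⟩ | ⟨b, a1, a2, a3, e⟩
    · rw [e]; exact hd
    · exact absurd (hd b a1 a3) a2
  · rcases ext_cases S g sol L with ⟨e, a⟩ | ⟨b, a1, a2, a3, e⟩
    · exact absurd a hd
    · have a4 := (hL.add h a1 a2).len
      have a5 := length_pos_of_mem (h.self a1)
      rw [e]
      rw [length_append] at *
      omega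

lemma EInv.sup (h : EInv S ρ o g sol) {L0 : List (List α)} (h0 : GC S sol L0) :
    GC S sol (cl (tab S g sol) L0) ∧ L0 ⊆ cl (tab S g sol) L0 :=
  h.ind (fun L => L0 ⊆ L) h0 (Subset.refl _) fun _ _ _ a _ _ _ =>
    subset_append_of_subset_left _ a

lemma EInv.min (h : EInv S ρ o g sol) {L0 L1 : List (List α)} (h0 : GC S sol L0)
    (h1 : GC S sol L1) (h2 : L0 ⊆ cl (tab S g sol) L1) :
    cl (tab S g sol) L0 ⊆ cl (tab S g sol) L1 :=
  (h.ind (fun L => L ⊆ cl (tab S g sol) L1) h0 h2 fun _ b _ a1 a2 _ a4 =>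
    append_subset.2 ⟨a1, (h.sup h1).1.2.2 b (h.fix h1 b a2 (a4.mono a1))⟩).2

lemma EInv.trans (h : EInv S ρ o g sol) {L1 : List (List α)} (h1 : GC S sol L1) {v : List α}
    (hv : v ∈ cl (tab S g sol) L1) : cl (tab S g sol) (sol v) ⊆ cl (tab S g sol) L1 :=
  h.min (h.gc ((h.sup h1).1.2.1 hv)) h1 ((h.sup h1).1.2.2 v hv)

lemma EInv.self' (h : EInv S ρ o g sol) {b : List α} (hb : b ∈ S) :
    b ∈ cl (tab S g sol) (sol b) := (h.sup (h.gc hb)).2 (h.self hb)

omit [DecidableEq α] in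
lemma gc_nil : GC S sol [] := ⟨nodup_nil, by simp, by simp⟩

lemma EInv.root (h : EInv S ρ o g sol) (r : Ref S ρ o) :
    Cost [] (cl (tab S g sol) []) (val o (cl (tab S g sol) [])) := by
  refine (h.ind (fun L => Cost [] L (val o L)) gc_nil trivial fun L b _ a1 a2 _ a4 => ?_).2
  obtain ⟨t, k, e, a5, a6⟩ := h.hd b a2
  replace a6 := h.low r (h.sub b a2) (h.gc a2).2.2 (h.self a2) a6
  rw [val_append]
  refine a1.append ?_
  rw [append_nil]
  conv_lhs => rw [e]
  exact ⟨g b, k, h.le b a2, a4, a5.mono (by simp) le_rfl, a6⟩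

/-- The merged groups. -/
def sol2 (S : List (List α)) (g : List α → ℕ) (sol : List α → List (List α)) (b : List α) :
    List (List α) :=
  (cl (tab S g sol) (sol b)).filter fun v =>
    ∃ f ∈ tab S g sol, f.1 = v ∧ b ∈ cl (tab S g sol) f.2.2

lemma pred_iff (b v : List α) : (∃ f ∈ tab S g sol, f.1 = v ∧ b ∈ cl (tab S g sol) f.2.2) ↔
    v ∈ S ∧ b ∈ cl (tab S g sol) (sol v) := by
  constructor
  · rintro ⟨f, hf, rfl, h⟩
    obtain ⟨c, hc, rfl⟩ := mem_map.1 hf
    exact ⟨hc, h⟩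
  · rintro ⟨h1, h2⟩
    exact ⟨(v, g v, sol v), mem_map_of_mem h1, rfl, h2⟩

lemma EInv.mem2 (h : EInv S ρ o g sol) {b v : List α} (hb : b ∈ S) : v ∈ sol2 S g sol b ↔
    v ∈ cl (tab S g sol) (sol b) ∧ b ∈ cl (tab S g sol) (sol v) := by
  rw [sol2, mem_filter, decide_eq_true_eq, pred_iff]
  exact ⟨fun a => ⟨a.1, a.2.2⟩, fun a => ⟨a.1, (h.sup (h.gc hb)).1.2.1 a.1, a.2⟩⟩

lemma EInv.sub2 (h : EInv S ρ o g sol) {b : List α} (hb : b ∈ S) : sol b ⊆ sol2 S g sol b :=
  fun v hv => (h.mem2 hb).2 ⟨(h.sup (h.gc hb)).2 hv,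
    (h.sup (h.gc (h.sub b hb hv))).2 ((h.grp b hb v hv b).2 (h.self hb))⟩

lemma EInv.bd2 (h : EInv S ρ o g sol) (r : Ref S ρ o) {b : List α} (hb : b ∈ S) :
    Bd ρ o g b (sol2 S g sol b) := by
  obtain ⟨p, hp⟩ : ∃ p : List α → Bool, p = fun v =>
    decide (∃ f ∈ tab S g sol, f.1 = v ∧ b ∈ cl (tab S g sol) f.2.2) := ⟨_, rfl⟩
  have hp' : ∀ v, p v ↔ v ∈ S ∧ b ∈ cl (tab S g sol) (sol v) := fun v => by
    rw [hp, decide_eq_true_eq, pred_iff]
  have all : ∀ c, p c → ∀ v ∈ sol c, p v := fun c hc v hv => by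
    have a := (hp' c).1 hc
    have a1 := h.sub c a.1 hv
    exact (hp' v).2 ⟨a1, h.trans (h.gc a1)
      ((h.sup (h.gc a1)).2 ((h.grp c a.1 v hv c).2 (h.self a.1))) a.2⟩
  rw [sol2, ← hp]
  refine (h.ind (fun L => Bd ρ o g b (L.filter p)) (h.gc hb) ?_ fun L c a0 a1 a2 _ a4 => ?_).2
  · rw [filter_eq_self.2 (all b ((hp' b).2 ⟨hb, h.self' hb⟩))]
    exact h.hd b hb
  rw [filter_append]
  by_cases hc : p c
  swap
  · rw [filter_eq_nil_iff.2 fun v hv hv' =>
      hc (all v hv' c ((h.grp c a2 v hv c).2 (h.self a2))), append_nil]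
    exact a1
  rw [filter_eq_self.2 (all c hc)]
  have a5 : tight (c, g c, sol c) (L.filter p) := by
    obtain ⟨u, u1, u2⟩ := a4
    rcases mem_cons.1 u1 with rfl | u1
    · exact ⟨[], by simp, u2⟩
    have u3 := a0.2.1 u1
    exact ⟨u, mem_cons_of_mem _ (mem_filter.2 ⟨u1, (hp' u).2 ⟨u3, h.trans (h.gc u3)
      (h.fix (h.gc u3) c a2 ⟨u, mem_cons_of_mem _ (h.self' u3), u2⟩) ((hp' c).1 hc).2⟩⟩), u2⟩
  have a6 : ∀ x ∈ L.filter p, sol x ⊆ L.filter p := fun x hx y hy =>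
    mem_filter.2 ⟨a0.2.2 x (mem_filter.1 hx).1 hy, all x (mem_filter.1 hx).2 y hy⟩
  obtain ⟨t, k, e, b1, b2⟩ := a1
  obtain ⟨t', k', e', c1, c2⟩ := h.hd c a2
  have b3 := h.low r (b := b) (fun x hx => a0.2.1 (mem_filter.1 hx).1) a6 (by rw [e]; simp) b2
  have c3 := h.low r (h.sub c a2) (h.gc a2).2.2 (h.self a2) c2
  refine ⟨t ++ sol c, k + (c.length - g c + k'), by rw [e]; rfl, b1.append ?_, fun f hf hm => ?_⟩
  · rw [e']
    rw [e] at a5
    exact ⟨g c, k', h.le c a2, a5.mono (perm_append_singleton b t).symm.subset,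
      c1.mono (by simp) le_rfl, le_rfl⟩
  · rw [val_append]
    rcases mem_append.1 hf with hf | hf
    · have := b2 f hf fun x hx => hm x (mem_append_left _ hx)
      omega
    · have := c2 f hf fun x hx => hm x (mem_append_right _ hx)
      omega

lemma EInv.merge (h : EInv S ρ o g sol) (r : Ref S ρ o) : EInv S ρ o g (sol2 S g sol) := by
  refine ⟨fun b hb => h.bd2 r hb, fun b hb => (h.sup (h.gc hb)).1.1.filter _,
    fun b hb x hx => (h.sup (h.gc hb)).1.2.1 (mem_filter.1 hx).1, fun b hb c hc x => ?_, h.le,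
    fun b hb u hu hn => h.fea b hb u hu fun a => hn (h.sub2 hb a)⟩
  obtain ⟨a1, a2⟩ := (h.mem2 hb).1 hc
  have a3 := (h.sup (h.gc hb)).1.2.1 a1
  rw [h.mem2 hb, h.mem2 a3]
  exact ⟨fun a => ⟨h.trans (h.gc hb) a1 a.1,
      h.trans (h.gc ((h.sup (h.gc a3)).1.2.1 a.1)) a.2 a2⟩,
    fun a => ⟨h.trans (h.gc a3) a2 a.1, h.trans (h.gc ((h.sup (h.gc hb)).1.2.1 a.1)) a.2 a1⟩⟩

/-- No entry into the group of `f` is available. -/
def Fr (S : List (List α)) (g : List α → ℕ) (sol : List α → List (List α)) (f : List α) : Prop :=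
  ∀ b ∈ S, b ∈ sol f → ¬ tight (b, g b, sol b) (S.filter fun u => u ∉ sol f)

lemma free_cases (S : List (List α)) (g : List α → ℕ) (sol : List α → List (List α)) :
    (free (tab S g sol) = [] ∧ ∀ f ∈ S, ¬ Fr S g sol f) ∨
      ∃ f ∈ S, Fr S g sol f ∧ free (tab S g sol) = [(f, g f, sol f)] := by
  have e0 : (tab S g sol).map (fun x => x.1) = S := by simp [tab, Function.comp_def]
  have key : ∀ f, (∀ e ∈ tab S g sol, e.1 ∈ sol f → ¬ tight e (S.filter fun u => u ∉ sol f)) ↔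
      Fr S g sol f := fun f => by simp only [tab, Fr, forall_mem_map]
  unfold free
  rw [e0]
  rcases h : (tab S g sol).filter fun f => ∀ e ∈ tab S g sol, e.1 ∈ f.2.2 →
    ¬ tight e (S.filter fun u => u ∉ f.2.2) with _ | ⟨e, r⟩
  · exact Or.inl ⟨by rw [h]; rfl, fun f hf hn => filter_eq_nil_iff.1 h (f, g f, sol f)
      (mem_map_of_mem hf) (decide_eq_true ((key f).2 hn))⟩
  · obtain ⟨h1, h2⟩ := mem_filter.1 (h ▸ mem_cons_self (a := e) (l := r))
    obtain ⟨f, hf, rfl⟩ := mem_map.1 h1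
    exact Or.inr ⟨f, hf, (key f).1 (of_decide_eq_true h2), by rw [h]; rfl⟩

lemma Fr.pos {f b : List α} (hf : Fr S g sol f) (hb : b ∈ S) (h : b ∈ sol f) : 0 < g b := by
  by_contra h0
  exact hf b hb h ⟨[], by simp, by simp [show g b = 0 by omega]⟩

lemma EInv.raise (h : EInv S ρ o g sol) {f : List α} (hf : f ∈ S) (hr : Fr S g sol f) :
    EInv S ρ o (fun b => if b ∈ sol f then g b - 1 else g b) sol := by
  refine ⟨fun b hb => ?_, h.nd, h.sub, h.grp, fun b hb => ?_, fun b hb u hu hn t h1 h2 => ?_⟩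
  · obtain ⟨t, k, e, a1, a2⟩ := h.hd b hb
    refine ⟨t, k, e, a1, fun c hc hm => ?_⟩
    have a3 := a2 c hc hm
    have a4 := h.sub b hb hc
    have a5 := h.le b hb
    by_cases h1 : b ∈ sol f
    · have h2 := (h.grp f hf b h1 c).1 hc
      have := hr.pos hb h1
      have := hr.pos a4 h2
      simp only [if_pos h1, if_pos h2]
      omega
    · have h2 : c ∉ sol f := fun h2 =>
        h1 ((h.grp f hf c h2 b).1 ((h.grp b hb c hc b).2 (h.self hb)))
      simp only [if_neg h1, if_neg h2]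
      omega
  · have := h.le b hb
    split_ifs <;> omega
  · have a := h.fea b hb u hu hn t h1 h2
    split_ifs with h3
    · have : t ≠ g b := fun e => hr b hb h3 ⟨u, mem_cons_of_mem _ (mem_filter.2 ⟨hu,
        decide_eq_true fun a => hn ((h.grp f hf b h3 u).2 a)⟩), by rwa [← e]⟩
      omega
    · exact a

lemma EInv.grow (h : EInv S ρ o g sol) (h1 : ∀ f ∈ S, ¬ Fr S g sol f)
    (h2 : ¬ ∀ b ∈ S, b ∈ cl (tab S g sol) []) :
    ∃ v ∈ S, ∃ u ∈ sol2 S g sol v, u ∉ sol v := by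
  obtain ⟨L, hL⟩ : ∃ L, L = S.filter fun b => b ∉ cl (tab S g sol) [] := ⟨_, rfl⟩
  have mL : ∀ b, b ∈ L ↔ b ∈ S ∧ b ∉ cl (tab S g sol) [] := fun b => by simp [hL]
  have hne : L ≠ [] := by
    push Not at h2
    obtain ⟨b, a⟩ := h2
    exact ne_nil_of_mem ((mL b).2 a)
  have m := (mL _).1 (amax_mem (fun v => (cl (tab S g sol) (sol v)).length) [] hne)
  have m' := fun c => amax_le (fun v => (cl (tab S g sol) (sol v)).length) [] (l := L) (x := c)
  generalize amax _ [] L = v at *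
  have a := h1 v m.1
  simp only [Fr, not_forall, not_not] at a
  obtain ⟨b, b1, b2, u, u1, u2⟩ := a
  have key : ∀ L1, GC S sol L1 → tight (b, g b, sol b) (cl (tab S g sol) L1) →
      v ∈ cl (tab S g sol) L1 := fun L1 a1 a2 =>
    (h.sup a1).1.2.2 b (h.fix a1 b b1 a2) ((h.grp v m.1 b b2 v).2 (h.self m.1))
  rcases mem_cons.1 u1 with rfl | u1
  · exact absurd (key [] gc_nil ⟨[], by simp, u2⟩) m.2
  obtain ⟨u3, u4⟩ := mem_filter.1 u1
  have u5 := key _ (h.gc u3) ⟨u, mem_cons_of_mem _ (h.self' u3), u2⟩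
  have u6 := m' u ((mL u).2 ⟨u3, fun a => m.2 (key [] gc_nil ⟨u, mem_cons_of_mem _ a, u2⟩)⟩)
  have u7 := (subperm_of_subset (h.sup (h.gc m.1)).1.1 (h.trans (h.gc u3) u5)).perm_of_length_le u6
  exact ⟨v, m.1, u, (h.mem2 m.1).2 ⟨u7.symm.subset (h.self' u3), u5⟩, of_decide_eq_true u4⟩

/-- The state of the method. -/
def ESt (S : List (List α)) (ρ o : List α → ℕ) (E : List (Ent α)) : Prop :=
  ∃ g sol, E = tab S g sol ∧ EInv S ρ o g sol

/-- Termination measure. -/
def emu (E : List (Ent α)) : ℕ := (E.map fun e => e.2.1 + (E.length - e.2.2.length)).sum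

lemma ESt.step (r : Ref S ρ o) {E : List (Ent α)} (h : ESt S ρ o E) :
    ESt S ρ o (estep E) ∧ ((¬ ∀ e ∈ E, e.1 ∈ cl E []) → emu (estep E) < emu E) := by
  obtain ⟨g, sol, rfl, h⟩ := h
  unfold estep
  by_cases hd : ∀ e ∈ tab S g sol, e.1 ∈ cl (tab S g sol) []
  · rw [if_pos hd]
    exact ⟨⟨g, sol, rfl, h⟩, fun a => absurd hd a⟩
  rw [if_neg hd]
  have mu : ∀ (g : List α → ℕ) (sol : List α → List (List α)),
      emu (tab S g sol) = (S.map fun b => g b + (S.length - (sol b).length)).sum :=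
    fun g sol => by simp [emu, tab, Function.comp_def]
  rcases free_cases S g sol with ⟨e, a⟩ | ⟨f, hf, a, e⟩
  · rw [if_pos e]
    have e1 : ((tab S g sol).map fun e => (e.1, e.2.1, (cl (tab S g sol) e.2.2).filter fun v =>
        ∃ f ∈ tab S g sol, f.1 = v ∧ e.1 ∈ cl (tab S g sol) f.2.2)) = tab S g (sol2 S g sol) :=
      map_map
    rw [e1]
    refine ⟨⟨g, _, rfl, h.merge r⟩, fun _ => ?_⟩
    rw [mu, mu]
    have sp := fun b hb => subperm_of_subset (h.nd b hb) (h.sub2 hb)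
    refine sum_lt_sum _ _ (fun b hb => by have := (sp b hb).length_le; omega) ?_
    obtain ⟨v, v1, u, u1, u2⟩ := h.grow a (by simpa only [tab, forall_mem_map] using hd)
    refine ⟨v, v1, ?_⟩
    have := ((h.merge r).gc v1).len
    have : ¬ (sol2 S g sol v).length ≤ (sol v).length := fun a =>
      u2 (((sp v v1).perm_of_length_le a).symm.subset u1)
    omega
  · rw [e, if_neg (by simp)]
    have e1 : ((tab S g sol).map fun e => (e.1, if e.1 ∈ [(f, g f, sol f)].flatMap fun f => f.2.2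
        then e.2.1 - 1 else e.2.1, e.2.2)) =
        tab S (fun b => if b ∈ sol f then g b - 1 else g b) sol := by
      simp [tab, Function.comp_def]
    rw [e1]
    refine ⟨⟨_, _, rfl, h.raise hf a⟩, fun _ => ?_⟩
    rw [mu, mu]
    refine sum_lt_sum _ _ (fun b hb => by split_ifs <;> omega) ⟨f, hf, ?_⟩
    have := a.pos hf (h.self hf)
    rw [if_pos (h.self hf)]
    omega

omit [DecidableEq α] in
lemma ESt.init (r : Ref S ρ o) : ESt S ρ o (S.map fun b => (b, b.length, [b])) := by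
  refine ⟨length, fun b => [b], rfl, fun b hb => ⟨[], 0, rfl, trivial, fun f hf _ => ?_⟩,
    by simp, by simp, by simp, by simp, fun _ _ _ _ _ _ a _ => a⟩
  rw [mem_singleton.1 hf]
  have := (r b hb).1
  simp [val]
  omega

lemma ESt.iter (r : Ref S ρ o) (n : ℕ) :
    ESt S ρ o (estep^[n] (S.map fun b => (b, b.length, [b]))) :=
  iter_inv _ (ESt S ρ o) (fun _ h => (ESt.step r h).1) _ (ESt.init r) n

lemma order_spec (r : Ref S ρ o) (nd : S.Nodup) :
    order S ~ S ∧ Cost [] (order S) (val o S) := by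
  have h1 := iter_done estep (ESt S ρ o) (fun E => ∀ e ∈ E, e.1 ∈ cl E []) emu
    (fun _ h => (ESt.step r h).1) (fun E _ hd => by rwa [estep, if_pos hd])
    (fun _ h => (ESt.step r h).2) (S.flatten.length + S.length * S.length) _ (ESt.init r) (by
      simp only [emu, map_map, Function.comp_def, length_map, length_flatten, sum_map_add]
      refine Nat.add_le_add_left ?_ _
      simp [Nat.mul_le_mul_left])
  obtain ⟨g, sol, e, h⟩ := ESt.iter r (S.flatten.length + S.length * S.length)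
  unfold order
  rw [e] at h1 ⊢
  have a := (h.sup gc_nil).1
  have p : cl (tab S g sol) [] ~ S := (perm_ext_iff_of_nodup a.1 nd).2 fun b =>
    ⟨fun x => a.2.1 x, fun x => h1 (b, g b, sol b) (mem_map_of_mem x)⟩
  exact ⟨p, (h.root r).mono (Subset.refl _) (p.map _).sum_eq.le⟩

end Vale.Agent.P333
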