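import Vale.Agent.P333.Greedy
import Vale.Agent.P333.Edm

/-! Correctness of the algorithm. -/

namespace Vale.Agent.P333

open List

variable {α : Type}

/-- No member contains another. -/
def AC (S : List (List α)) : Prop := S.Pairwise fun a b => ¬ a <:+: b ∧ ¬ b <:+: a

lemma AC.perm {S S' : List (List α)} (h : AC S) (p : S ~ S') : AC S' :=
  (p.pairwise_iff fun h => h.symm).1 h

lemma AC.nodup {S : List (List α)} (h : AC S) : S.Nodup :=
  Pairwise.imp (fun {a b} h (e : a = b) => h.1 (e ▸ infix_refl a)) h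

lemma chain_of (T : List α) : ∀ S : List (List α), AC S → (∀ s ∈ S, s ≠ []) →
    (∀ s ∈ S, s <:+: T) → S = [] ∨ ∃ (p : List α) (l : List (Item α)) (i : ℕ),
      (p :: l.map fun x => x.1) ~ S ∧ Ch p l ∧ p <+: T.drop i ∧ i + p.length + wt l ≤ T.length := by
  induction T with
  | nil =>
    intro S _ h1 h2
    exact Or.inl (eq_nil_iff_forall_not_mem.2 fun s hs => h1 s hs (infix_nil.1 (h2 s hs)))
  | cons c T ih =>
    intro S h0 h1 h2
    by_cases hp : ∃ s ∈ S, s <+: c :: T
    swap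
    · refine (ih S h0 h1 fun s hs => (infix_cons_iff.1 (h2 s hs)).resolve_left
        fun a => hp ⟨s, hs, a⟩).imp id ?_
      rintro ⟨p, l, i, a1, a2, a3, a4⟩
      exact ⟨p, l, i + 1, a1, a2, a3, by rw [length_cons]; omega⟩
    obtain ⟨s, hs, hp⟩ := hp
    obtain ⟨P, Q, rfl⟩ := append_of_mem hs
    have p1 : P ++ s :: Q ~ s :: (P ++ Q) := perm_middle
    have sub : ∀ u ∈ P ++ Q, u ∈ P ++ s :: Q := fun u hu => p1.symm.subset (mem_cons_of_mem _ hu)
    obtain ⟨b1, b2⟩ := pairwise_cons.1 (h0.perm p1)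
    have hl := hp.length_le
    right
    rcases ih (P ++ Q) b2 (fun u hu => h1 u (sub u hu)) (fun u hu =>
      (infix_cons_iff.1 (h2 u (sub u hu))).resolve_left fun a =>
        (prefix_or_prefix_of_prefix hp a).elim (fun a => (b1 u hu).1 a.isInfix)
          fun a => (b1 u hu).2 a.isInfix) with e | ⟨p, l, i, a1, a2, a3, a4⟩
    · exact ⟨s, [], 0, by rw [e] at p1; exact p1.symm, trivial, hp, by simpa using hl⟩
    have a5 : s.drop (i + 1) <+: p := by
      refine (prefix_or_prefix_of_prefix (hp.drop (i + 1)) a3).resolve_right fun a => ?_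
      exact (b1 p (a1.subset (mem_cons_self ..))).2 (a.isInfix.trans (drop_suffix _ _).isInfix)
    have a6 := a5.length_le
    have a7 := length_pos_iff.2 (h1 s hs)
    rw [length_drop] at a6
    refine ⟨s, (p, s.length - (i + 1), []) :: l, 0, (a1.cons s).trans p1.symm,
      ⟨⟨by simp only; omega, a6, ?_⟩, a2⟩, hp, ?_⟩
    · simp only
      rw [← length_drop, ← prefix_iff_eq_take.1 a5]
      exact drop_suffix _ _
    · simp only [wt_cons, length_cons] at *
      omega

lemma trip {p : List α} {l : List (Item α)} (h : Ch p l) :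
    ∃ t : List (List α × List α × ℕ),
      (lastS p l :: t.map fun t => t.1) ~ (p :: l.map fun x => x.1) ∧
      (t.map fun t => t.2.1) = (l.map fun x => x.1) ∧ (∀ x ∈ t, Ov x.1 x.2.1 x.2.2) ∧
      (t.map fun t => t.2.2).sum + wt l = (l.map fun x => x.1).flatten.length := by
  induction l generalizing p with
  | nil => exact ⟨[], by simp, rfl, by simp, rfl⟩
  | cons x l ih =>
    obtain ⟨t, a1, a2, a3, a4⟩ := ih h.2
    refine ⟨(p, x.1, x.2.1) :: t, ?_, by simp [a2], ?_, ?_⟩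
    · rw [lastS_cons]
      exact (Perm.swap _ _ _).trans (a1.cons _)
    · intro y hy
      rcases mem_cons.1 hy with rfl | hy
      · exact h.1
      · exact a3 y hy
    · have := h.1.2.1
      simp only [map_cons, sum_cons, wt_cons, flatten_cons, length_append]
      omega

lemma good_of {T : List α} {S : List (List α)} (h0 : AC S) (h1 : ∀ s ∈ S, s ≠ [])
    (h2 : ∀ s ∈ S, s <:+: T) : ∃ k, Good S S k ∧ S.flatten.length ≤ T.length + k := by
  rcases chain_of T S h0 h1 h2 with rfl | ⟨p, l, i, a1, a2, _, a4⟩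
  · exact ⟨0, ⟨[], by simp⟩, by simp⟩
  obtain ⟨t, b1, b2, b3, b4⟩ := trip a2
  refine ⟨_, ⟨(lastS p l, p, 0) :: t, b1.trans a1, by rw [map_cons, b2]; exact a1, ?_, le_rfl⟩, ?_⟩
  · intro y hy
    rcases mem_cons.1 hy with rfl | hy
    · exact ⟨length_pos_iff.2 (h1 _ (a1.subset (lastS_mem p l))), by simp, by simp⟩
    · exact b3 y hy
  · rw [← a1.flatten.length_eq]
    simp only [map_cons, sum_cons, flatten_cons, length_append]
    omega

variable [DecidableEq α]

lemma rank_of (l : List (Item α)) : ∀ (p : List α) (n : ℕ), Ch p l →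
    (p :: l.map fun x => x.1).Nodup → ∃ ρ o : List α → ℕ, o p = n ∧ ∀ y ∈ l, o y.1 = y.2.1 ∧
      ∃ u ∈ p :: l.map fun x => x.1, ρ u < ρ y.1 ∧ y.1.take y.2.1 <:+: u := by
  induction l with
  | nil => exact fun p n _ _ => ⟨fun _ => 0, fun _ => n, rfl, by simp⟩
  | cons x l ih =>
    intro p n h nd
    obtain ⟨n1, n2⟩ := nodup_cons.1 nd
    obtain ⟨ρ, o, a1, a2⟩ := ih x.1 x.2.1 h.2 n2
    have ne : ∀ u ∈ (x :: l).map fun x => x.1, u ≠ p := fun u hu e => n1 (e ▸ hu)
    refine ⟨fun v => if v = p then 0 else ρ v + 1, fun v => if v = p then n else o v, by simp,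
      fun y hy => ?_⟩
    have a3 := ne y.1 (mem_map_of_mem hy)
    simp only [if_neg a3]
    rcases mem_cons.1 hy with rfl | hy
    · exact ⟨a1, p, by simp, by simp, h.1.2.2.isInfix⟩
    · obtain ⟨b1, u, b2, b3, b4⟩ := a2 y hy
      exact ⟨b1, u, mem_cons_of_mem _ b2, by simp only [if_neg (ne u b2)]; omega, b4⟩

lemma ref_of {T : List α} {S : List (List α)} (h0 : AC S) (h1 : ∀ s ∈ S, s ≠ [])
    (h2 : ∀ s ∈ S, s <:+: T) : ∃ ρ o, Ref S ρ o ∧ val o S ≤ T.length := by
  rcases chain_of T S h0 h1 h2 with rfl | ⟨p, l, i, a1, a2, _, a4⟩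
  · exact ⟨fun _ => 0, fun _ => 0, by simp [Ref], by simp [val]⟩
  obtain ⟨ρ, o, b1, b2⟩ := rank_of l p 0 a2 (a1.nodup_iff.2 h0.nodup)
  refine ⟨ρ, o, fun b hb => ?_, ?_⟩
  · rcases mem_cons.1 (a1.symm.subset hb) with rfl | hb
    · simp [b1]
    · obtain ⟨y, hy, rfl⟩ := mem_map.1 hb
      obtain ⟨c1, u, c2, c3⟩ := b2 y hy
      rw [c1]
      exact ⟨a2.le y hy, Or.inr ⟨u, a1.subset c2, c3⟩⟩
  · have e1 : val o _ = val o S := (a1.map _).sum_eq
    have e2 : val o (l.map fun x => x.1) = wt l := by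
      rw [val, map_map, wt]
      exact congrArg sum (map_congr_left fun y hy => by simp [(b2 y hy).1])
    have e3 : val o (p :: l.map fun x => x.1) = p.length - o p + val o (l.map fun x => x.1) := by
      simp [val]
    omega

lemma pre_aux (S : List (List α)) : ∀ A : List (List α), AC A → (∀ u ∈ A, u ≠ []) →
    ∀ R, R = S.foldl (fun acc x => if x = [] ∨ ∃ u ∈ acc, x <:+: u then acc
      else x :: acc.filter fun u => ¬ u <:+: x) A →
    AC R ∧ (∀ u ∈ R, u ≠ [] ∧ u ∈ A ++ S) ∧ ∀ s ∈ A ++ S, s = [] ∨ ∃ u ∈ R, s <:+: u := by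
  induction S with
  | nil =>
    rintro A h1 h2 R rfl
    exact ⟨h1, fun u hu => ⟨h2 u hu, by simpa using hu⟩,
      fun s hs => Or.inr ⟨s, by simpa using hs, infix_refl _⟩⟩
  | cons x S ih =>
    intro A h1 h2 R e
    rw [foldl_cons] at e
    split_ifs at e with hx
    · obtain ⟨a1, a2, a3⟩ := ih A h1 h2 R e
      refine ⟨a1, fun u hu => ⟨(a2 u hu).1, perm_middle.symm.subset
        (mem_cons_of_mem _ (a2 u hu).2)⟩, fun s hs => ?_⟩
      rcases mem_cons.1 (perm_middle.subset hs) with rfl | hs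
      · refine hx.elim Or.inl fun ⟨u, u1, u2⟩ => ?_
        obtain ⟨v, v1, v2⟩ := (a3 u (mem_append_left _ u1)).resolve_left (h2 u u1)
        exact Or.inr ⟨v, v1, u2.trans v2⟩
      · exact a3 s hs
    · push Not at hx
      obtain ⟨a1, a2, a3⟩ := ih _ (pairwise_cons.2 ⟨fun u hu => ⟨hx.2 u (mem_filter.1 hu).1,
        of_decide_eq_true (mem_filter.1 hu).2⟩, Pairwise.filter _ h1⟩) (fun u hu => by
          rcases mem_cons.1 hu with rfl | hu
          · exact hx.1
          · exact h2 u (mem_filter.1 hu).1) R e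
      refine ⟨a1, fun u hu => ⟨(a2 u hu).1, ?_⟩, fun s hs => ?_⟩
      · have := (a2 u hu).2
        simp only [mem_append, mem_cons, mem_filter] at this ⊢
        tauto
      by_cases h3 : s <:+: x
      · obtain ⟨v, v1, v2⟩ := (a3 x (by simp)).resolve_left hx.1
        exact Or.inr ⟨v, v1, h3.trans v2⟩
      · refine a3 s ?_
        simp only [mem_append, mem_cons, mem_filter, h3] at hs ⊢
        tauto

lemma pre_spec (S : List (List α)) : AC (pre S) ∧ (∀ u ∈ pre S, u ≠ [] ∧ u ∈ S) ∧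
    ∀ s ∈ S, s = [] ∨ ∃ u ∈ pre S, s <:+: u :=
  pre_aux S [] Pairwise.nil (by simp) _ rfl

lemma nodes_add {l : List (List α)} {p : List α} (h : p ∈ pfs l) (r : List α) :
    nodes ((p ++ r) :: l) ≤ nodes l + r.length := by
  have h1 : (pfs ((p ++ r) :: l)).toFinset ⊆ (pfs l).toFinset ∪
      (Finset.range r.length).image fun j => p ++ r.take (j + 1) := fun q hq => by
    obtain ⟨z, z1, z2⟩ := mem_pfs.1 h
    obtain ⟨w, hw, h2⟩ := mem_pfs.1 (mem_toFinset.1 hq)
    have k0 : ∀ w ∈ l, q <+: w → q ∈ (pfs l).toFinset ∪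
        (Finset.range r.length).image fun j => p ++ r.take (j + 1) := fun w a b =>
      Finset.mem_union_left _ (mem_toFinset.2 (mem_pfs.2 ⟨w, a, b⟩))
    rcases mem_cons.1 hw with rfl | hw
    · rcases pre_app.1 h2 with h3 | ⟨t, rfl, h3⟩
      · exact k0 z z1 (h3.trans z2)
      · cases t with
        | nil => exact k0 z z1 (by simpa using z2)
        | cons c t =>
          exact Finset.mem_union_right _ (Finset.mem_image.2 ⟨t.length,
            Finset.mem_range.2 h3.length_le, congrArg _ (prefix_iff_eq_take.1 h3).symm⟩)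
    · exact k0 w hw h2
  have h2 := (Finset.card_le_card h1).trans (Finset.card_union_le _ _)
  have h3 := Finset.card_image_le (s := Finset.range r.length) (f := fun j => p ++ r.take (j + 1))
  rw [Finset.card_range] at h3
  unfold nodes
  omega

lemma bstep_spec (W : List (List α × List α)) (b : List α) :
    ∃ p t, bstep W b = (b, p ++ b.drop t) :: W ∧ p ∈ pfs ([] :: W.map fun q => q.2) ∧
      b <:+ p ++ b.drop t ∧
      ∀ j ≤ b.length, ∀ z ∈ [] :: W.map fun q => q.2, b.take j <:+: z → j ≤ t := by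
  refine ⟨_, _, rfl, amax_mem _ _ (ne_nil_of_mem (mem_pfs.2 ⟨[], by simp, prefix_refl _⟩)),
    ?_, fun j hj z hz h => ?_⟩
  · generalize amax _ _ _ = p
    conv_lhs => rw [← take_append_drop (sov b p) b]
    exact suffix_append_self_iff.2
      (Nat.findGreatest_spec (P := fun t => b.take t <:+ p) (Nat.zero_le _) (by simp))
  · obtain ⟨p, h1, h2⟩ := infix_iff_suffix_prefix.1 h
    exact (Nat.le_findGreatest hj h1).trans (amax_le (sov b) [] (mem_pfs.2 ⟨z, hz, h2⟩))

lemma build (P : α → Prop) (L : List (List α)) : ∀ (L0 : List (List α))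
    (W : List (List α × List α)) (k : ℕ), Cost L0 L k → (∀ q ∈ W, q.1 <:+ q.2) →
    L0 ⊆ W.map (fun q => q.1) → (∀ q ∈ W, ∀ c ∈ q.2, P c) → (∀ b ∈ L, ∀ c ∈ b, P c) →
    nodes ([] :: (L.foldl bstep W).map fun q => q.2) ≤ nodes ([] :: W.map fun q => q.2) + k ∧
    (∀ q ∈ L.foldl bstep W, q.1 <:+ q.2 ∧ ∀ c ∈ q.2, P c) ∧
    ((L.foldl bstep W).map fun q => q.1) ~ L ++ W.map fun q => q.1 := by
  induction L with
  | nil => exact fun _ W k _ h1 _ h3 _ => ⟨by simp, fun q hq => ⟨h1 q hq, h3 q hq⟩, by simp⟩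
  | cons b L ih =>
    rintro L0 W k ⟨t, j, a1, ⟨u, a2, a3⟩, a4, a5⟩ h1 h2 h3 h4
    obtain ⟨p, s, b1, b2, b3, b4⟩ := bstep_spec W b
    rw [foldl_cons, b1]
    obtain ⟨c1, c2, c3⟩ := ih (b :: L0) ((b, p ++ b.drop s) :: W) j a4
      (forall_mem_cons.2 ⟨b3, h1⟩) (cons_subset_cons _ h2) (forall_mem_cons.2 ⟨fun c hc => by
        rcases mem_append.1 hc with hc | hc
        · obtain ⟨z, z1, z2⟩ := mem_pfs.1 b2
          rcases mem_cons.1 z1 with rfl | z1
          · exact absurd (z2.subset hc) (by simp)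
          · obtain ⟨q, q1, rfl⟩ := mem_map.1 z1
            exact h3 q q1 c (z2.subset hc)
        · exact h4 b (by simp) c (mem_of_mem_drop hc), h3⟩)
      fun x hx => h4 x (mem_cons_of_mem _ hx)
    refine ⟨c1.trans ?_, c2, c3.trans perm_middle⟩
    have d1 : t ≤ s := by
      rcases mem_cons.1 a2 with rfl | a2
      · exact b4 t a1 [] (by simp) a3
      · obtain ⟨q, q1, rfl⟩ := mem_map.1 (h2 a2)
        exact b4 t a1 q.2 (mem_cons_of_mem _ (mem_map_of_mem q1)) (a3.trans (h1 q q1).isInfix)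
    have d2 := nodes_add b2 (b.drop s)
    have d3 := nodes_mono (l := [] :: ((b, p ++ b.drop s) :: W).map fun q => q.2)
      (l' := (p ++ b.drop s) :: [] :: W.map fun q => q.2) fun z hz =>
        ⟨z, (Perm.swap _ _ (W.map fun q => q.2)).subset hz, prefix_refl _⟩
    rw [length_drop] at d2
    omega

lemma start {T : List α} {S : List (List α)} (h0 : AC S) (h1 : ∀ s ∈ S, s ≠ [])
    (h2 : ∀ s ∈ S, s <:+: T) :
    MInv S (2 * T.length + 1) (fun c => c ∈ S.flatten) [] (cover (tree S)) ∧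
      (cover (tree S)).flatten.length = S.length := by
  obtain ⟨ρ, o, r1, r2⟩ := ref_of h0 h1 h2
  obtain ⟨o1, o2⟩ := order_spec r1 h0.nodup
  obtain ⟨b1, b2, b3⟩ := build (fun c => c ∈ S.flatten) (order S) [] [] _ o2 (by simp) (by simp)
    (by simp) fun b hb c hc => mem_flatten.2 ⟨b, o1.subset hb, hc⟩
  rw [map_nil, append_nil] at b3
  rw [map_nil, nodes_one] at b1
  replace b3 := b3.trans o1
  rw [← tree] at b1 b2 b3
  obtain ⟨k, g1, g2⟩ := good_of h0 h1 h2
  obtain ⟨c1, c2, c3⟩ := cover_spec (W := tree S) (B := T.length)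
    (fun q hq => h1 _ (b3.subset (mem_map_of_mem hq))) (g1.perm b3.symm b3.symm)
    (b3.flatten.length_eq ▸ g2)
  have m : ∀ x ∈ (cover (tree S)).flatten, (x.1, x.2.2) ∈ tree S := fun x hx =>
    c2.subset (mem_map_of_mem hx)
  refine ⟨⟨c1, fun x hx => ⟨(b2 _ (m x hx)).1, nil_prefix⟩, fun u hu => Or.inr ?_, ?_, by simp,
    fun x hx => (b2 _ (m x hx)).2⟩, ?_⟩
  · obtain ⟨q, q1, rfl⟩ := mem_map.1 (b3.symm.subset hu)
    obtain ⟨x, x1, rfl⟩ := mem_map.1 (c2.symm.subset q1)
    exact ⟨x, x1, infix_refl _⟩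
  · have := nodes_mono (l := [] :: (cover (tree S)).flatten.map fun x => x.2.2)
      (l' := [] :: (tree S).map fun q => q.2) fun z hz => ⟨z, by
        rcases mem_cons.1 hz with rfl | hz
        · simp
        · obtain ⟨x, x1, rfl⟩ := mem_map.1 hz
          exact mem_cons_of_mem _ (mem_map.2 ⟨_, m x x1, rfl⟩), prefix_refl _⟩
    simp only [length_nil] at b1
    omega
  · have e1 := c2.length_eq
    have e2 := b3.length_eq
    simp only [length_map] at e1 e2
    omega

theorem alg_spec (S : List (List α)) (T : List α) (h : ∀ s ∈ S, s <:+: T) :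
    (∀ s ∈ S, s <:+: alg S) ∧ (alg S).length ≤ 2 * T.length := by
  obtain ⟨p1, p2, p3⟩ := pre_spec S
  obtain ⟨a1, a2⟩ := start p1 (fun s hs => (p2 s hs).1) fun s hs => h s (p2 s hs).2
  obtain ⟨b1, b2⟩ := a1.final a2.le
  refine ⟨fun s hs => ?_, Nat.le_of_lt_succ b2⟩
  rcases p3 s hs with rfl | ⟨u, u1, u2⟩
  · exact nil_infix
  · exact u2.trans (b1 u u1)

end Vale.Agent.P333
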