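import Mathlib

/-! Binary encodings of letters, strings and instances. -/

namespace Vale.Agent.P333

/-- Self-delimiting code of a list: `1` before the code of each member, `0` at the end. -/
def encList {α : Type} (e : α → List Bool) : List α → List Bool
  | [] => [false]
  | a :: l => true :: (e a ++ encList e l)

/-- Code of a bit: `100` or `0`. -/
def encBit (b : Bool) : List Bool := if b then [true, false, false] else [false]

/-- Code of a letter (a letter is a binary word). -/
def encLetter : List Bool → List Bool := encList encBit

/-- Code of a string (a list of letters). -/
def encString : List (List Bool) → List Bool := encList encLetter

/-- Code of an instance (a list of strings). -/
def encInstance : List (List (List Bool)) → List Bool := encList encString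

end Vale.Agent.P333
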