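import Vale.Agent.P333.Time
import Vale.Agent.P333.Defs

/-! The codes agree. -/

namespace Vale.Agent.P333

lemma encList_eq {α : Type} [Enc α] {e : α → List Bool} (h : e = fun a => ser (Enc.enc a)) :
    encList e = fun l => ser (Enc.enc l) := by
  funext l
  induction l with
  | nil => rfl
  | cons a l ih => rw [encList, ih, h]; rfl

lemma encString_eq : encString = fun l => ser (Enc.enc l) :=
  encList_eq (encList_eq (funext fun b => by cases b <;> rfl))

lemma encInstance_eq : encInstance = fun l => ser (Enc.enc l) := encList_eq encString_eq

end Vale.Agent.P333
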