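import Vale.Agent.P333.Main

/-! The greedy cycle cover. -/

namespace Vale.Agent.P333

open List

variable {α : Type}

/-- A perfect matching of ends and starts with total overlap at least `k`. -/
def Good (A B : List (List α)) (k : ℕ) : Prop :=
  ∃ l : List (List α × List α × ℕ), (l.map fun t => t.1) ~ A ∧ (l.map fun t => t.2.1) ~ B ∧
    (∀ t ∈ l, Ov t.1 t.2.1 t.2.2) ∧ k ≤ (l.map fun t => t.2.2).sum

lemma Good.perm {A B A' B' : List (List α)} {k : ℕ} (h : Good A B k) (h1 : A ~ A') (h2 : B ~ B') :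
    Good A' B' k :=
  let ⟨l, a, b, c⟩ := h; ⟨l, a.trans h1, b.trans h2, c⟩

lemma monge {a b a' b' : List α} {h o p : ℕ} (H : Ov a b h) (H1 : Ov a b' o) (H2 : Ov a' b p)
    (h1 : o ≤ h) (h2 : p ≤ h) : Ov a' b' (o + p - h) := by
  refine ⟨by have := H2.1; omega, by have := H1.2.1; omega, IsSuffix.trans ?_ H2.2.2⟩
  have a1 := H.2.1
  have a2 := H1.2.1
  obtain ⟨q, hq⟩ := suffix_of_suffix_length_le H1.2.2 H.2.2 (by simp; omega)
  have a3 := congrArg length hq
  simp only [length_append, length_take] at a3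
  have e : b.take p = (b.take h).take p := by rw [take_take, min_eq_left h2]
  rw [e, ← hq, take_append, take_take,
    show min (p - q.length) o = o + p - h by omega]
  exact suffix_append _ _

lemma Good.step {A B : List (List α)} {a b : List α} {k h : ℕ} (g : Good (a :: A) (b :: B) k)
    (H : Ov a b h) (hm : ∀ x ∈ a :: A, ∀ y ∈ b :: B, ∀ o, Ov x y o → o ≤ h) :
    Good A B (k - h) := by
  obtain ⟨l, g1, g2, g3, g4⟩ := g
  have g5 : ∀ t ∈ l, t.2.2 ≤ h := fun t ht => hm _ (g1.subset (mem_map_of_mem ht)) _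
    (g2.subset (mem_map_of_mem (f := fun t : List α × List α × ℕ => t.2.1) ht)) _ (g3 t ht)
  obtain ⟨t, ht, rfl⟩ := mem_map.1 (g1.symm.subset (mem_cons_self ..))
  obtain ⟨P, Q, rfl⟩ := append_of_mem ht
  have p1 : P ++ t :: Q ~ t :: (P ++ Q) := perm_middle
  generalize P ++ t :: Q = l at *
  generalize P ++ Q = l1 at *
  have g6 := ((p1.map _).symm.trans g1).cons_inv
  have g7 := (p1.map _).symm.trans g2
  have g8 := (p1.map fun t => t.2.2).sum_eq
  rw [map_cons, sum_cons] at g8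
  rw [map_cons] at g7
  have s1 : ∀ x ∈ l1, x ∈ l := fun x hx => p1.symm.subset (mem_cons_of_mem _ hx)
  rcases mem_cons.1 (g7.symm.subset (mem_cons_self ..)) with e | e
  · rw [← e] at g7
    exact ⟨l1, g6, g7.cons_inv, fun x hx => g3 x (s1 x hx), by have := g5 t ht; omega⟩
  obtain ⟨u, hu, rfl⟩ := mem_map.1 e
  obtain ⟨P, Q, rfl⟩ := append_of_mem hu
  have p2 : P ++ u :: Q ~ u :: (P ++ Q) := perm_middle
  have g9 := (p2.map fun t => t.2.2).sum_eq
  rw [map_cons, sum_cons] at g9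
  refine ⟨(u.1, t.2.1, t.2.2 + u.2.2 - h) :: (P ++ Q), (p2.map _).symm.trans g6, ?_, ?_, ?_⟩
  · exact (((Perm.swap _ _ _).trans ((p2.map _).symm.cons _)).trans g7).cons_inv
  · intro x hx
    rcases mem_cons.1 hx with rfl | hx
    · exact monge H (g3 t ht) (g3 u (s1 u hu)) (g5 t ht) (g5 u (s1 u hu))
    · exact g3 x (s1 x (p2.symm.subset (mem_cons_of_mem _ hx)))
  · rw [map_cons, sum_cons]
    simp only
    omega

lemma Ch.le {p : List α} {l : List (Item α)} (h : Ch p l) : ∀ x ∈ l, x.2.1 ≤ x.1.length := by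
  induction l generalizing p with
  | nil => simp
  | cons y l ih =>
    intro x hx
    rcases mem_cons.1 hx with rfl | hx
    · exact h.1.2.1
    · exact ih h.2 x hx

lemma lastS_mem (p : List α) (l : List (Item α)) : lastS p l ∈ p :: l.map fun x => x.1 :=
  getLastD_mem_cons

lemma setH_cons (h : ℕ) (x : Item α) (l : List (Item α)) :
    setH h (x :: l) = (x.1, h, x.2.2) :: l := rfl

variable [DecidableEq α]

lemma ov_spec {a : List α} (h : a ≠ []) (b : List α) : Ov a b (ov a b) := by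
  have h1 : ov a b ≤ _ := Nat.findGreatest_le _
  have h2 := length_pos_iff.2 h
  exact ⟨by omega, by omega,
    Nat.findGreatest_spec (P := fun t => b.take t <:+ a) (Nat.zero_le _) (by simp)⟩

lemma Ov.le {a b : List α} {o : ℕ} (h : Ov a b o) : o ≤ ov a b :=
  Nat.le_findGreatest (by have := h.1; have := h.2.1; omega) h.2.2

/-- Invariant of the greedy cover. -/
structure GInv (W : List (List α × List α)) (B : ℕ) (H C : List (List (Item α))) : Prop where
  chn : ∀ c ∈ H, ∃ x l, c = x :: l ∧ x.2.1 = 0 ∧ Ch x.1 l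
  cyc : ∀ c ∈ C, Cyc c
  per : ((H ++ C).flatten.map fun x => (x.1, x.2.2)) ~ W
  good : ∃ k, Good (H.map (lastS [])) (H.map headS) k ∧ wt (H ++ C).flatten ≤ B + k

variable {W : List (List α × List α)} {B : ℕ}

lemma GInv.step (hW : ∀ q ∈ W, q.1 ≠ []) {G : List (List (Item α)) × List (List (Item α))}
    (h : GInv W B G.1 G.2) :
    GInv W B (gstep G).1 (gstep G).2 ∧ (gstep G).1.length ≤ G.1.length - 1 := by
  obtain ⟨H, C⟩ := G
  simp only at h ⊢
  by_cases h0 : H = []
  · subst h0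
    exact ⟨h, le_rfl⟩
  have all : ∀ P ∈ H, ∀ Q ∈ H, ∃ c ∈ gcand (H, C), c.1 = ov (lastS [] P) (headS Q) := by
    intro P hP Q hQ
    obtain ⟨H1, H2, e⟩ := append_of_mem hP
    by_cases hQP : Q = P
    · exact ⟨_, mem_flatMap.2 ⟨(H1, P, H2), mem_splits.2 e, mem_cons_self ..⟩, by rw [hQP]⟩
    · have : Q ∈ H1 ++ H2 := by
        rw [e] at hQ
        simp only [mem_append, mem_cons] at hQ ⊢
        tauto
      obtain ⟨D1, D2, e'⟩ := append_of_mem this
      exact ⟨_, mem_flatMap.2 ⟨(H1, P, H2), mem_splits.2 e, mem_cons_of_mem _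
        (mem_map.2 ⟨(D1, Q, D2), mem_splits.2 e', rfl⟩)⟩, rfl⟩
  have hne : gcand (H, C) ≠ [] := by
    obtain ⟨P, hP⟩ := exists_mem_of_ne_nil _ h0
    obtain ⟨c, hc, _⟩ := all P hP P hP
    exact ne_nil_of_mem hc
  have h1 := amax_mem (fun c => c.1) (0, H, C) hne
  have h2 : ∀ x ∈ H.map (lastS []), ∀ y ∈ H.map headS, ∀ o, Ov x y o →
      o ≤ (amax (fun c => c.1) (0, H, C) (gcand (H, C))).1 := by
    intro x hx y hy o ho
    obtain ⟨P, hP, rfl⟩ := mem_map.1 hx
    obtain ⟨Q, hQ, rfl⟩ := mem_map.1 hy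
    obtain ⟨c, hc, e⟩ := all P hP Q hQ
    exact ho.le.trans (e ▸ amax_le (fun c => c.1) _ hc)
  have h3 : ∀ P ∈ H, lastS [] P ≠ [] := by
    intro P hP
    obtain ⟨x, l, rfl, _⟩ := h.chn P hP
    rw [lastS_cons]
    obtain ⟨y, hy, e⟩ := mem_map.1 (show _ ∈ (x :: l).map fun x => x.1 from lastS_mem x.1 l)
    rw [← e]
    exact hW _ (h.per.subset (mem_map_of_mem (mem_flatten.2 ⟨_, mem_append_left _ hP, hy⟩)))
  unfold gstep
  generalize amax _ _ (gcand (H, C)) = c at *
  obtain ⟨⟨H1, P, H2⟩, hs, hc⟩ := mem_flatMap.1 h1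
  replace hs := mem_splits.1 hs
  simp only at hs hc
  have hP : P ∈ H := by rw [hs]; simp
  have sub : ∀ Q ∈ H1 ++ H2, Q ∈ H := fun Q hQ => by
    rw [hs]
    simp only [mem_append, mem_cons] at hQ ⊢
    tauto
  have p1 : H ~ P :: (H1 ++ H2) := hs ▸ perm_middle
  obtain ⟨k, g1, g2⟩ := h.good
  have per := h.per
  obtain ⟨x, l, e1, e2, e3⟩ := h.chn P hP
  rcases mem_cons.1 hc with rfl | hc
  · have o1 := ov_spec (h3 P hP) (headS P)
    generalize ov (lastS [] P) (headS P) = o at *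
    have p2 : (H ++ C).flatten ~ P ++ ((H1 ++ H2) ++ C).flatten := (p1.append_right C).flatten
    have p3 : ((H1 ++ H2) ++ setH o P :: C).flatten ~ setH o P ++ ((H1 ++ H2) ++ C).flatten :=
      perm_middle.flatten
    refine ⟨⟨fun Q hQ => h.chn Q (sub Q hQ), fun Q hQ => ?_, ?_, k - o,
      (g1.perm (p1.map _) (p1.map _)).step o1 fun a ha b hb =>
        h2 a ((p1.map _).symm.subset ha) b ((p1.map _).symm.subset hb), ?_⟩, ?_⟩
    · rcases mem_cons.1 hQ with rfl | hQ
      · subst e1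
        exact ⟨by simp [setH_cons], o1, e3⟩
      · exact h.cyc Q hQ
    · refine (p3.map _).trans (Perm.trans ?_ ((p2.map _).symm.trans per))
      rw [e1, setH_cons]
      rfl
    · have a1 : wt _ = wt _ := (p2.map _).sum_eq
      have a2 : wt _ = wt _ := (p3.map _).sum_eq
      have a3 := o1.2.1
      subst e1
      simp only [setH_cons, wt_append, wt_cons, headS, map_cons, headD_cons] at *
      omega
    · rw [p1.length_eq]; simp
  · obtain ⟨⟨D1, Q, D2⟩, hr, rfl⟩ := mem_map.1 hc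
    replace hr := mem_splits.1 hr
    simp only at hr h2 ⊢
    have hQ : Q ∈ H := sub Q (by rw [hr]; simp)
    obtain ⟨y, m, f1, f2, f3⟩ := h.chn Q hQ
    have o1 := ov_spec (h3 P hP) (headS Q)
    generalize ov (lastS [] P) (headS Q) = o at *
    have p0 : H ~ P :: Q :: (D1 ++ D2) := p1.trans (Perm.cons _ (hr ▸ perm_middle))
    have p2 : (H ++ C).flatten ~ P ++ (Q ++ ((D1 ++ D2) ++ C).flatten) :=
      (p0.append_right C).flatten
    have p4 : H.map headS ~ headS Q :: headS P :: (D1 ++ D2).map headS :=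
      (p0.map _).trans (Perm.swap _ _ _)
    refine ⟨⟨fun R hR => ?_, h.cyc, ?_, k - o,
      ((g1.perm (p0.map _) p4).step o1 fun a ha b hb =>
        h2 a ((p0.map _).symm.subset ha) b (p4.symm.subset hb)).perm ?_ ?_, ?_⟩, ?_⟩
    · rcases mem_cons.1 hR with rfl | hR
      · subst e1 f1
        rw [lastS_cons] at o1
        exact ⟨x, l ++ _, rfl, e2, (ch_append _ _ _).2 ⟨e3, o1, f3⟩⟩
      · exact h.chn R (p0.symm.subset (mem_cons_of_mem _ (mem_cons_of_mem _ hR)))
    · refine Perm.trans ?_ ((p2.map _).symm.trans per)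
      rw [f1, setH_cons]
      simp
    · rw [f1, setH_cons]
      simp
    · rw [e1]
      rfl
    · have a1 : wt _ = wt _ := (p2.map _).sum_eq
      have a3 := o1.2.1
      subst f1
      simp only [setH_cons, wt_append, wt_cons, headS, map_cons, headD_cons, cons_append,
        flatten_cons] at *
      omega
    · rw [p0.length_eq]; simp

lemma GInv.iter (hW : ∀ q ∈ W, q.1 ≠ []) {G : List (List (Item α)) × List (List (Item α))}
    (h : GInv W B G.1 G.2) (n : ℕ) :
    GInv W B (gstep^[n] G).1 (gstep^[n] G).2 ∧ (gstep^[n] G).1.length ≤ G.1.length - n := by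
  induction n with
  | zero => exact ⟨h, le_rfl⟩
  | succ n ih =>
    rw [Function.iterate_succ_apply']
    exact ⟨(ih.1.step hW).1, by have := (ih.1.step hW).2; omega⟩

omit [DecidableEq α] in
lemma GInv.init {k : ℕ} (g : Good (W.map fun q => q.1) (W.map fun q => q.1) k)
    (hB : (W.map fun q => q.1).flatten.length ≤ B + k) :
    GInv W B (W.map fun q => [(q.1, 0, q.2)]) [] := by
  have e : (W.map (fun q : List α × List α => [((q.1, 0, q.2) : Item α)]) ++ []).flatten =
      W.map fun q => (q.1, 0, q.2) := by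
    rw [append_nil, ← flatMap_def, ← map_eq_flatMap]
  refine ⟨fun c hc => ?_, by simp, by rw [e]; simp [Function.comp_def], k,
    by rw [map_map, map_map]; exact g, ?_⟩
  · obtain ⟨q, _, rfl⟩ := mem_map.1 hc
    exact ⟨_, [], rfl, rfl, trivial⟩
  · rw [e]
    simpa [wt, Function.comp_def] using hB

lemma cover_spec (hW : ∀ q ∈ W, q.1 ≠ []) {k : ℕ}
    (g : Good (W.map fun q => q.1) (W.map fun q => q.1) k)
    (hB : (W.map fun q => q.1).flatten.length ≤ B + k) :
    (∀ c ∈ cover W, Cyc c) ∧ ((cover W).flatten.map fun x => (x.1, x.2.2)) ~ W ∧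
      wt (cover W).flatten ≤ B := by
  obtain ⟨h1, h2⟩ := GInv.iter hW (G := (_, [])) (GInv.init g hB) W.length
  have h3 := length_eq_zero_iff.1 (Nat.le_zero.1 (h2.trans_eq (by simp)))
  obtain ⟨j, ⟨l, a1, _, _, a2⟩, a3⟩ := h1.good
  have a4 := h1.per
  rw [h3] at a1 a3 a4
  have : l = [] := by simpa using a1
  subst this
  exact ⟨h1.cyc, a4, by simp only [map_nil, sum_nil, nil_append] at a2 a3; unfold cover; omega⟩

end Vale.Agent.P333
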