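import Vale.Agent.P333.Surg

/-! The main loop. -/

namespace Vale.Agent.P333

open List

variable {α : Type}

/-- `h` is a proper overlap of `a` and `b`. -/
def Ov (a b : List α) (h : ℕ) : Prop := h < a.length ∧ h ≤ b.length ∧ b.take h <:+ a

/-- Chains of overlaps. -/
def Ch : List α → List (Item α) → Prop
  | _, [] => True
  | p, x :: l => Ov p x.1 x.2.1 ∧ Ch x.1 l

/-- Cycles of overlaps. -/
def Cyc (l : List (Item α)) : Prop := l ≠ [] ∧ Ch (lastS [] l) l

/-- Weight. -/
def wt (l : List (Item α)) : ℕ := (l.map fun x => x.1.length - x.2.1).sum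

@[simp] lemma lastS_nil (p : List α) : lastS p [] = p := rfl

@[simp] lemma lastS_cons (p : List α) (x : Item α) (l : List (Item α)) :
    lastS p (x :: l) = lastS x.1 l := by
  rw [lastS, map_cons, getLastD_cons, lastS]

@[simp] lemma lastS_append (p : List α) (P Q : List (Item α)) :
    lastS p (P ++ Q) = lastS (lastS p P) Q := by
  induction P generalizing p with
  | nil => rfl
  | cons x P ih => simp [ih]

lemma getLastD_fst (M : List (Item α)) (b : Item α) : (M.getLastD b).1 = lastS b.1 M := by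
  induction M generalizing b with
  | nil => rfl
  | cons x M ih => rw [getLastD_cons, ih, lastS_cons]

lemma ch_append (p : List α) (P Q : List (Item α)) :
    Ch p (P ++ Q) ↔ Ch p P ∧ Ch (lastS p P) Q := by
  induction P generalizing p with
  | nil => simp [Ch]
  | cons x P ih => simp [Ch, ih, and_assoc]

lemma Cyc.rot {P Q : List (Item α)} {x : Item α} (h : Cyc (P ++ x :: Q)) : Cyc (x :: (Q ++ P)) := by
  have := h.2
  simp only [lastS_append, lastS_cons, ch_append, Ch] at this
  refine ⟨by simp, ?_⟩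
  simp only [lastS_append, lastS_cons, ch_append, Ch]
  tauto

@[simp] lemma lastS_up (F : List α → List α) (p : List α) (l : List (Item α)) :
    lastS p (l.map (up F)) = lastS p l := by
  simp [lastS, up, Function.comp_def]

lemma ch_up (F : List α → List α) (p : List α) (l : List (Item α)) :
    Ch p (l.map (up F)) ↔ Ch p l := by
  induction l generalizing p with
  | nil => rfl
  | cons x l ih => simp [Ch, ih, up]

lemma Cyc.up {l : List (Item α)} (h : Cyc l) (F : List α → List α) : Cyc (l.map (up F)) :=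
  ⟨by simpa using h.1, by rw [lastS_up, ch_up]; exact h.2⟩

@[simp] lemma wt_up (F : List α → List α) (l : List (Item α)) : wt (l.map (up F)) = wt l := by
  simp [wt, up, Function.comp_def]

@[simp] lemma wt_append (l l' : List (Item α)) : wt (l ++ l') = wt l + wt l' := by simp [wt]

@[simp] lemma wt_cons (x : Item α) (l : List (Item α)) :
    wt (x :: l) = x.1.length - x.2.1 + wt l := by simp [wt]

@[simp] lemma wt_nil : wt ([] : List (Item α)) = 0 := rfl

lemma window {p Z : List α} {M : List (Item α)} (h : Ch p M) (hp : p <:+ Z) :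
    (∀ x ∈ M, x.1 <:+: Z ++ M.flatMap fun x => x.1.drop x.2.1) ∧
      lastS p M <:+ Z ++ M.flatMap fun x => x.1.drop x.2.1 := by
  induction M generalizing p Z with
  | nil => simpa using hp
  | cons x M ih =>
    have h1 : x.1 <:+ Z ++ x.1.drop x.2.1 := by
      conv_lhs => rw [← take_append_drop x.2.1 x.1]
      exact suffix_append_self_iff.2 (h.1.2.2.trans hp)
    obtain ⟨a1, a2⟩ := ih h.2 h1
    rw [flatMap_cons, ← append_assoc, lastS_cons]
    refine ⟨fun y hy => ?_, a2⟩
    rcases mem_cons.1 hy with rfl | hy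
    · exact h1.isInfix.trans (prefix_append _ _).isInfix
    · exact a1 y hy

lemma window_len (M : List (Item α)) :
    (M.flatMap fun x => x.1.drop x.2.1).length = wt M := by
  simp [wt, length_flatMap]

lemma Ov.left {a b w : List α} {h : ℕ} (H : Ov a b h) (hw : a <:+ w) : Ov w b h :=
  ⟨H.1.trans_le hw.length_le, H.2.1, H.2.2.trans hw⟩

lemma Ov.right {a b : List α} {h : ℕ} (H : Ov a b h) (r : List α) : Ov a (b ++ r) h :=
  ⟨H.1, by rw [length_append]; exact H.2.1.trans (Nat.le_add_right _ _),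
    by rw [take_append_of_le_length H.2.1]; exact H.2.2⟩

lemma Ch.left {a w : List α} {l : List (Item α)} (H : Ch a l) (hw : a <:+ w) : Ch w l := by
  cases l with
  | nil => trivial
  | cons x l => exact ⟨H.1.left hw, H.2⟩

lemma Ov.glue {a b : List α} {h : ℕ} (H : Ov a b h) : b <:+ a ++ b.drop h := by
  conv_lhs => rw [← take_append_drop h b]
  exact suffix_append_self_iff.2 H.2.2

variable [DecidableEq α]

/-- Invariant of the main loop. -/
structure MInv (S : List (List α)) (B : ℕ) (P : α → Prop) (X : List α)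
    (C : List (List (Item α))) : Prop where
  cyc : ∀ c ∈ C, Cyc c
  suf : ∀ x ∈ C.flatten, x.1 <:+ x.2.2 ∧ X <+: x.2.2
  cov : ∀ u ∈ S, u <:+: X ∨ ∃ x ∈ C.flatten, u <:+: x.1
  pot : nodes (X :: C.flatten.map fun x => x.2.2) + wt C.flatten ≤ B
  lt1 : ∀ c ∈ X, P c
  lt2 : ∀ x ∈ C.flatten, ∀ c ∈ x.2.2, P c

variable {S : List (List α)} {B : ℕ} {P : α → Prop} {X : List α}

lemma MInv.perm {C C' : List (List (Item α))} (h : MInv S B P X C) (hc : ∀ c ∈ C', Cyc c)
    (hp : C.flatten ~ C'.flatten) : MInv S B P X C' := by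
  refine ⟨hc, fun x hx => h.suf x (hp.mem_iff.2 hx), fun u hu => (h.cov u hu).imp id ?_, ?_,
    h.lt1, fun x hx => h.lt2 x (hp.mem_iff.2 hx)⟩
  · rintro ⟨x, hx, h1⟩
    exact ⟨x, hp.mem_iff.1 hx, h1⟩
  · have h1 := nodes_mono (l := X :: C'.flatten.map fun x => x.2.2)
      (l' := X :: C.flatten.map fun x => x.2.2) fun z hz =>
        ⟨z, ((hp.map _).cons X).mem_iff.2 hz, prefix_refl _⟩
    have h2 : wt C.flatten = wt C'.flatten := (hp.map _).sum_eq
    have := h.pot
    omega

omit [DecidableEq α] in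
lemma flat_up (F : List α → List α) (C : List (List (Item α))) :
    (C.map fun c => c.map (up F)).flatten = C.flatten.map (up F) := by
  rw [map_flatten]

lemma MInv.act {b : Item α} {M : List (Item α)} {R : List (List (Item α))}
    (h : MInv S B P X ((b :: M) :: R))
    (hm : ∀ x ∈ ((b :: M) :: R).flatten,
      b.2.2.length - b.1.length ≤ x.2.2.length - x.1.length) :
    MInv S B P (go X (b, M, R)).1 (go X (b, M, R)).2 ∧
      (go X (b, M, R)).2.flatten.length < ((b :: M) :: R).flatten.length := by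
  obtain ⟨a, ha⟩ : ∃ a, a = M.getLastD b := ⟨_, rfl⟩
  obtain ⟨k, hk⟩ : ∃ k, k = b.2.2.length - b.1.length := ⟨_, rfl⟩
  obtain ⟨Y, hY⟩ : ∃ Y, Y = b.2.2.take (k + b.2.1) := ⟨_, rfl⟩
  have e : go X (b, M, R) = P333.act X b a M R Y k := by rw [ha, hY, hk]; rfl
  rw [e]
  have ha0 : a ∈ b :: M := ha ▸ getLastD_mem_cons
  have ha1 : a ∈ ((b :: M) :: R).flatten := by rw [flatten_cons]; exact mem_append_left _ ha0
  have hb1 : b ∈ ((b :: M) :: R).flatten := by simp
  have hc := (h.cyc _ (mem_cons_self ..)).2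
  rw [lastS_cons, ← getLastD_fst, ← ha] at hc
  obtain ⟨ho, hch⟩ := hc
  have hlen : ∀ x ∈ ((b :: M) :: R).flatten, k + x.1.length ≤ x.2.2.length := fun x hx => by
    have := hm x hx
    have := (h.suf x hx).1.length_le
    omega
  obtain ⟨⟨T, hT⟩, hXb⟩ := h.suf b hb1
  have hTk : T.length = k := by rw [hk, ← hT]; simp
  have hY1 : Y = T ++ b.1.take b.2.1 := by rw [hY, ← hT, ← hTk, take_length_add_append]
  have hY2 : Y.drop k = b.1.take b.2.1 := by rw [hY1, ← hTk, drop_left]
  have hY3 : Y.length = k + b.2.1 := by rw [hY1]; simp [hTk, ho.2.1]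
  have hY4 : Y <+: b.2.2 := hY ▸ take_prefix _ _
  have hY5 : b.2.2.drop Y.length = b.1.drop b.2.1 := by
    rw [hY3, ← hT, ← hTk, drop_length_add_append]
  have cfg : Cfg a.2.2 Y k := by
    obtain ⟨U, hU⟩ := ho.2.2.trans (h.suf a ha1).1
    refine ⟨by omega, U, by rw [hY2, hU], ?_⟩
    have h1 := congrArg length hU
    have h2 := hlen a ha1
    have h3 := ho.1
    simp only [length_append, length_take] at h1
    omega
  have pot := h.pot
  unfold P333.act
  split_ifs with hp
  · obtain ⟨w1, w2⟩ := window hch (h.suf b hb1).1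
    have w3 := window_len M
    have w4 : ∀ c ∈ b.2.2 ++ M.flatMap fun x => x.1.drop x.2.1, P c := by
      intro c hc
      rcases mem_append.1 hc with hc | hc
      · exact h.lt2 b hb1 c hc
      · obtain ⟨x, hx, hc⟩ := mem_flatMap.1 hc
        have hx' : x ∈ ((b :: M) :: R).flatten := by simp [hx]
        exact h.lt2 x hx' c ((h.suf x hx').1.subset (mem_of_mem_drop hc))
    generalize (M.flatMap fun x => x.1.drop x.2.1) = W at *
    have sub : ∀ x ∈ R.flatten, x ∈ ((b :: M) :: R).flatten := fun x hx => by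
      rw [flatten_cons]; exact mem_append_right _ hx
    rw [← getLastD_fst, ← ha] at w2
    refine ⟨⟨?_, ?_, ?_, ?_, w4, ?_⟩, ?_⟩
    · intro c hc
      obtain ⟨c, hc', rfl⟩ := mem_map.1 hc
      exact (h.cyc c (mem_cons_of_mem _ hc')).up _
    · intro x hx
      rw [flat_up] at hx
      obtain ⟨x, hx', rfl⟩ := mem_map.1 hx
      exact ⟨cfg.fp_suf hp (hY2 ▸ ho.2.2.trans w2) (h.suf x (sub x hx')).1 (hlen x (sub x hx')),
        prefix_append _ _⟩
    · intro u hu
      rcases h.cov u hu with h1 | ⟨x, hx, h1⟩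
      · exact Or.inl (h1.trans (hXb.trans (prefix_append _ _)).isInfix)
      rw [flatten_cons, mem_append, mem_cons] at hx
      rcases hx with (rfl | hx) | hx
      · exact Or.inl (h1.trans ((h.suf x hb1).1.isInfix.trans (prefix_append _ _).isInfix))
      · exact Or.inl (h1.trans (w1 x hx))
      · exact Or.inr ⟨up _ x, by rw [flat_up]; exact mem_map_of_mem hx, h1⟩
    · have := cfg.nodes_fp (X := b.2.2 ++ W) hp
        (l := X :: ((b :: M) :: R).flatten.map fun x => x.2.2)
        (l' := R.flatten.map fun x => x.2.2) (mem_cons_of_mem _ (mem_map_of_mem ha1))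
        (subset_cons_of_subset _ (map_subset _ sub))
      rw [flat_up, wt_up, map_map]
      rw [map_map] at this
      have h1 := congrArg length hT
      have h2 := ho.2.1
      simp only [flatten_cons, wt_append, wt_cons, length_append, Function.comp_def, up] at *
      omega
    · intro x hx c hc
      rw [flat_up] at hx
      obtain ⟨x, hx', rfl⟩ := mem_map.1 hx
      rcases fp_mem hc with hc | hc | hc
      · exact w4 c hc
      · exact h.lt2 a ha1 c hc
      · exact h.lt2 x (sub x hx') c hc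
    · rw [flat_up, length_map, flatten_cons, length_append, length_cons]; omega
  · have hM : M ≠ [] := by
      rintro rfl
      exact hp (by rw [ha]; exact hY4)
    obtain ⟨N, rfl⟩ : ∃ N, M = N ++ [a] := by
      refine ⟨M.dropLast, ?_⟩
      rw [ha, getLastD_eq_getLast?, getLast?_eq_some_getLast hM, Option.getD_some,
        dropLast_append_getLast]
    have hXa := (h.suf a ha1).2
    have hXl : X.length ≤ lcp a.2.2 Y := by
      rcases prefix_or_prefix_of_prefix hXb hY4 with h1 | h1
      · exact le_lcp hXa h1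
      · exact absurd (h1.trans hXa) hp
    rw [dropLast_concat]
    obtain ⟨n, hn⟩ : ∃ n : Item α, n = (a.1 ++ b.1.drop b.2.1, a.2.1, b.2.2) := ⟨_, rfl⟩
    rw [← hn]
    have old : ∀ x ∈ ((N ++ [n]) :: R).flatten,
        x = n ∨ x ∈ ((b :: (N ++ [a])) :: R).flatten := by
      intro x hx
      simp only [flatten_cons, mem_append, mem_cons] at hx ⊢
      tauto
    have hg : b.1 <:+ n.1 := by rw [hn]; exact ho.glue
    refine ⟨⟨?_, ?_, ?_, ?_, h.lt1, ?_⟩, ?_⟩
    · intro c hc
      obtain ⟨c, hc', rfl⟩ := mem_map.1 hc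
      rcases mem_cons.1 hc' with rfl | hc'
      · refine Cyc.up ⟨by simp, ?_⟩ _
        rw [lastS_append, lastS_cons, lastS_nil]
        refine Ch.left ?_ hg
        rw [ch_append] at hch ⊢
        exact ⟨hch.1, by rw [hn]; exact hch.2.1.right _, trivial⟩
      · exact (h.cyc c (mem_cons_of_mem _ hc')).up _
    · intro x hx
      rw [flat_up] at hx
      obtain ⟨x, hx', rfl⟩ := mem_map.1 hx
      rcases old x hx' with rfl | h1
      · refine ⟨?_, cfg.fm_pre hXa hXl (by rw [hn]; exact hXb)⟩
        rw [hn]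
        change _ <:+ fm _ _ _ _
        rw [fm, if_pos ((lcp_lt hp).trans_le (le_lcp hY4 (prefix_refl _))), cfg.mov_full hY4, hY5]
        exact suffix_append_self_iff.2 (h.suf a ha1).1
      · exact ⟨cfg.fm_suf (h.suf x h1).1 (hlen x h1), cfg.fm_pre hXa hXl (h.suf x h1).2⟩
    · intro u hu
      refine (h.cov u hu).imp id ?_
      rintro ⟨x, hx, h1⟩
      rw [flat_up]
      simp only [flatten_cons, mem_append, mem_cons, not_mem_nil, or_false] at hx
      rcases hx with (rfl | hx | rfl) | hx
      · exact ⟨up _ n, mem_map_of_mem (by simp), h1.trans hg.isInfix⟩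
      · exact ⟨up _ x, mem_map_of_mem (by simp [hx]), h1⟩
      · exact ⟨up _ n, mem_map_of_mem (by simp), h1.trans (by
          rw [hn]; exact (prefix_append _ _).isInfix)⟩
      · exact ⟨up _ x, mem_map_of_mem (by rw [flatten_cons]; exact mem_append_right _ hx), h1⟩
    · have h1 := nodes_fm (X := X) (Y := Y) (k := k)
        (l := ((b :: (N ++ [a])) :: R).flatten.map fun x => x.2.2) (mem_map_of_mem ha1) hXa
      have h2 := nodes_mono (l := X :: (((N ++ [n]) :: R).flatten.map (up (fm a.2.2 Y k))).map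
        fun x => x.2.2) (l' := X :: (((b :: (N ++ [a])) :: R).flatten.map fun x => x.2.2).map
          (fm a.2.2 Y k)) fun z hz => by
        refine ⟨z, ?_, prefix_refl _⟩
        rcases mem_cons.1 hz with rfl | hz
        · exact mem_cons_self ..
        rw [map_map] at hz
        obtain ⟨x, hx', rfl⟩ := mem_map.1 hz
        refine mem_cons_of_mem _ (mem_map_of_mem ?_)
        rcases old x hx' with rfl | h1
        · exact mem_map.2 ⟨b, hb1, by rw [hn]⟩
        · exact mem_map_of_mem h1
      dsimp only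
      rw [flat_up, wt_up]
      have h3 : wt ((N ++ [n]) :: R).flatten ≤ wt ((b :: (N ++ [a])) :: R).flatten := by
        simp only [flatten_cons, wt_append, wt_cons, wt_nil, hn, length_append, length_drop]
        omega
      omega
    · intro x hx c hc
      rw [flat_up] at hx
      obtain ⟨x, hx', rfl⟩ := mem_map.1 hx
      rcases fm_mem hc with hc | hc
      · exact h.lt2 a ha1 c hc
      · rcases old x hx' with rfl | h1
        · rw [hn] at hc; exact h.lt2 b hb1 c hc
        · exact h.lt2 x h1 c hc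
    · rw [flat_up]
      simp only [length_map, flatten_cons, length_append, length_cons]
      omega

omit [DecidableEq α] in
lemma mem_mcand {C : List (List (Item α))} {c : Item α × List (Item α) × List (List (Item α))} :
    c ∈ mcand C ↔ ∃ C1 C2 P Q, C = C1 ++ (P ++ c.1 :: Q) :: C2 ∧ c.2.1 = Q ++ P ∧
      c.2.2 = C1 ++ C2 := by
  simp only [mcand, mem_flatMap, mem_map, mem_splits']
  constructor
  · rintro ⟨s, hs, r, hr, rfl⟩
    exact ⟨s.1, s.2.2, r.1, r.2.2, by rw [hs, hr], rfl, rfl⟩
  · rintro ⟨C1, C2, P, Q, h1, h2, h3⟩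
    exact ⟨(C1, P ++ c.1 :: Q, C2), h1, (P, c.1, Q), rfl, by rw [← h2, ← h3]⟩

lemma MInv.step {s : List α × List (List (Item α))} (h : MInv S B P s.1 s.2) :
    MInv S B P (mstep s).1 (mstep s).2 ∧ (mstep s).2.flatten.length ≤ s.2.flatten.length - 1 := by
  unfold mstep
  split_ifs with h0
  · exact ⟨h, by simp [h0]⟩
  have all : ∀ x ∈ s.2.flatten, ∃ c ∈ mcand s.2, c.1 = x := by
    intro x hx
    obtain ⟨l, hl, hx⟩ := mem_flatten.1 hx
    obtain ⟨C1, C2, e1⟩ := append_of_mem hl
    obtain ⟨P, Q, rfl⟩ := append_of_mem hx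
    exact ⟨(x, Q ++ P, C1 ++ C2), mem_mcand.2 ⟨C1, C2, P, Q, e1, rfl, rfl⟩, rfl⟩
  have hne : mcand s.2 ≠ [] := by
    obtain ⟨l, hl⟩ := exists_mem_of_ne_nil _ h0
    obtain ⟨x, hx⟩ := exists_mem_of_ne_nil _ (h.cyc l hl).1
    obtain ⟨c, hc, _⟩ := all x (mem_flatten.2 ⟨l, hl, hx⟩)
    exact ne_nil_of_mem hc
  have h1 := amin_mem (fun c => c.1.2.2.length - c.1.1.length) (([], 0, []), [], []) hne
  have h2 := fun c => amin_le (fun c => c.1.2.2.length - c.1.1.length) (([], 0, []), [], [])
    (l := mcand s.2) (x := c)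
  generalize amin _ _ (mcand s.2) = c at *
  obtain ⟨b, M, R⟩ := c
  obtain ⟨C1, C2, P', Q, e1, e2, e3⟩ := mem_mcand.1 h1
  simp only at e1 e2 e3
  have hp : s.2.flatten ~ ((b :: M) :: R).flatten := by
    rw [e1, e2, e3]
    simp only [flatten_append, flatten_cons]
    refine (perm_append_comm_assoc _ _ _).trans (Perm.append_right _ ?_)
    exact perm_append_comm
  have h3 := (h.perm (C' := (b :: M) :: R) (fun c hc => ?_) hp).act fun x hx => ?_
  · exact ⟨h3.1, by rw [hp.length_eq]; exact Nat.le_sub_one_of_lt h3.2⟩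
  · rcases mem_cons.1 hc with rfl | hc
    · rw [e2]; exact (h.cyc _ (by rw [e1]; simp)).rot
    · refine h.cyc c ?_
      rw [e3] at hc
      rw [e1]
      simp only [mem_append, mem_cons] at hc ⊢
      tauto
  · obtain ⟨c, hc, rfl⟩ := all x (hp.mem_iff.2 hx)
    exact h2 c hc

lemma MInv.iter {C : List (List (Item α))} (h : MInv S B P X C) (n : ℕ) :
    MInv S B P (mstep^[n] (X, C)).1 (mstep^[n] (X, C)).2 ∧
      (mstep^[n] (X, C)).2.flatten.length ≤ C.flatten.length - n := by
  induction n with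
  | zero => exact ⟨h, le_rfl⟩
  | succ n ih =>
    rw [Function.iterate_succ_apply']
    exact ⟨ih.1.step.1, by have := ih.1.step.2; omega⟩

lemma MInv.final {C : List (List (Item α))} (h : MInv S B P X C) {n : ℕ}
    (hn : C.flatten.length ≤ n) :
    (∀ u ∈ S, u <:+: (mstep^[n] (X, C)).1) ∧ (mstep^[n] (X, C)).1.length < B := by
  obtain ⟨h1, h2⟩ := h.iter n
  have h3 : (mstep^[n] (X, C)).2.flatten = [] := length_eq_zero_iff.1 (by omega)
  refine ⟨fun u hu => (h1.cov u hu).resolve_right (by simp [h3]), ?_⟩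
  have := h1.pot
  rw [h3, map_nil, nodes_one] at this
  omega

end Vale.Agent.P333
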