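import Vale.Agent.P333.PT
import Vale.Agent.P333.Basic

/-! Polynomial time operations on numbers and lists. -/

namespace Vale.Agent.P333

open List Enc

variable {α β γ : Type} [Enc α] [Enc β] [Enc γ]

@[fun_prop] lemma PT.reverse {l : α → List β} (hl : PT l) : PT fun a => (l a).reverse :=
  (PT.foldA (s := fun _ => []) (f := fun _ b x => x :: b) hl (by fun_prop) (by fun_prop)
    (t := fun p => sz p.2 + 1) (by fun_prop) fun _ _ _ => by rw [sz_cons]; dsimp only; omega).congr
    fun a => by simp

@[fun_prop] lemma PT.append {l m : α → List β} (hl : PT l) (hm : PT m) :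
    PT fun a => l a ++ m a :=
  (PT.foldA (f := fun _ b x => x :: b) hl.reverse hm (by fun_prop)
    (t := fun p => sz p.2 + 1) (by fun_prop) fun _ _ _ => by rw [sz_cons]; dsimp only; omega).congr
    fun a => by simp

@[fun_prop] lemma PT.flatMap {l : α → List β} {f : α → β → List γ} (hl : PT l)
    (hf : PT fun p : α × β => f p.1 p.2) : PT fun a => (l a).flatMap (f a) := by
  have h1 : PT fun p : α × List γ × β => f p.1 p.2.2 :=
    hf.comp (f := fun p : α × List γ × β => (p.1, p.2.2)) (by fun_prop)
  refine (PT.foldA (s := fun _ => []) (f := fun a b x => b ++ f a x) hl (by fun_prop)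
    (PT.append (by fun_prop) h1) (PB.sz hf) fun a b x => by
      have := sz_append b (f a x); simp only; omega).congr fun a => ?_
  rw [foldl_append_eq_append, nil_append, flatMap_def]

@[fun_prop] lemma PT.map {l : α → List β} {f : α → β → γ} (hl : PT l)
    (hf : PT fun p : α × β => f p.1 p.2) : PT fun a => (l a).map (f a) :=
  (PT.flatMap (f := fun a x => [f a x]) hl (hf.cons (PT.const _))).congr fun _ =>
    map_eq_flatMap.symm

@[fun_prop] lemma PT.flatten {l : α → List (List β)} (hl : PT l) : PT fun a => (l a).flatten :=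
  (PT.flatMap (f := fun _ x => x) hl (by fun_prop)).congr fun _ => flatMap_id'

@[fun_prop] lemma PT.filter {l : α → List β} {f : α → β → Bool} (hl : PT l)
    (hf : PT fun p : α × β => f p.1 p.2) : PT fun a => (l a).filter (f a) := by
  refine (PT.flatMap (f := fun a x => if f a x then [x] else []) hl
    (hf.cond (by fun_prop) (by fun_prop))).congr fun a => ?_
  induction l a with
  | nil => rfl
  | cons x m ih => rw [flatMap_cons, ih, filter_cons]; split_ifs <;> rfl

@[fun_prop] lemma PT.tail {l : α → List β} (hl : PT l) : PT fun a => (l a).tail :=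
  (PT.elim (n := fun _ => []) (c := fun _ _ r => r) hl (by fun_prop) (by fun_prop)).congr
    fun a => by cases l a <;> rfl

@[fun_prop] lemma PT.headD {l : α → List β} {d : α → β} (hl : PT l) (hd : PT d) :
    PT fun a => (l a).headD (d a) :=
  (PT.elim (c := fun _ x _ => x) hl hd (by fun_prop)).congr fun a => by cases l a <;> rfl

@[fun_prop] lemma PT.getLastD {l : α → List β} {d : α → β} (hl : PT l) (hd : PT d) :
    PT fun a => (l a).getLastD (d a) :=
  (hl.reverse.headD hd).congr fun a => by simp

lemma enc_rep (n : ℕ) : enc n = enc (replicate n false) := by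
  induction n with
  | zero => rfl
  | succ n ih => exact congrArg (V.node .leaf) ih

lemma PT.rep {n : α → ℕ} (hn : PT n) : PT fun a => replicate (n a) false :=
  hn.of_enc fun _ => enc_rep _

@[fun_prop] lemma PT.length {l : α → List β} (hl : PT l) : PT fun a => (l a).length :=
  (PT.map (f := fun _ _ => false) hl (by fun_prop)).of_enc fun a => by rw [enc_rep, map_const']

@[fun_prop] lemma PT.add {f g : α → ℕ} (hf : PT f) (hg : PT g) : PT fun a => f a + g a :=
  (hf.rep.append hg.rep).length.congr fun _ => by simp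

@[fun_prop] lemma PT.mul {f g : α → ℕ} (hf : PT f) (hg : PT g) : PT fun a => f a * g a :=
  (PT.flatMap (f := fun a _ => replicate (g a) false) hf.rep
    (PT.rep (by fun_prop))).length.congr fun _ => by simp

@[fun_prop] lemma PT.drop {n : α → ℕ} {l : α → List β} (hn : PT n) (hl : PT l) :
    PT fun a => (l a).drop (n a) := by
  refine (PT.iterA (f := fun _ l => l.tail) hn hl (by fun_prop) (PB.const 0)
    fun _ l => sz_sub (tail_sublist l)).congr fun a => ?_
  induction n a with
  | zero => rfl
  | succ i ih => rw [Function.iterate_succ_apply', ih, tail_drop]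

@[fun_prop] lemma PT.sub {f g : α → ℕ} (hf : PT f) (hg : PT g) : PT fun a => f a - g a :=
  (hg.drop hf.rep).length.congr fun _ => by simp

@[fun_prop] lemma PT.min {f g : α → ℕ} (hf : PT f) (hg : PT g) :
    PT fun a => min (f a) (g a) := (hf.sub (hf.sub hg)).congr fun _ => by omega

@[fun_prop] lemma PT.take {n : α → ℕ} {l : α → List β} (hn : PT n) (hl : PT l) :
    PT fun a => (l a).take (n a) :=
  ((hl.length.sub hn).drop hl.reverse).reverse.congr fun a => by
    rw [← reverse_take, reverse_reverse]

@[fun_prop] lemma PT.dropLast {l : α → List β} (hl : PT l) : PT fun a => (l a).dropLast :=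
  ((hl.length.sub (PT.const 1)).take hl).congr fun _ => dropLast_eq_take.symm

@[fun_prop] lemma PT.range {n : α → ℕ} (hn : PT n) : PT fun a => range (n a) := by
  have e : ∀ i, (fun l : List ℕ => l ++ [l.length])^[i] [] = List.range i := by
    intro i
    induction i with
    | zero => rfl
    | succ i ih => rw [Function.iterate_succ_apply', ih, length_range, range_succ]
  have h := hn.pb
  refine (PT.iter0 (s := fun _ => []) (f := fun l : List ℕ => l ++ [l.length]) hn (by fun_prop)
    (by fun_prop) (t := fun a => n a * (2 * n a + 1 + 1) + 1) (by fun_prop)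
    fun a i hi => ?_).congr fun a => e _
  rw [e]
  refine (sz_list (B := 2 * n a + 1) fun x hx => ?_).trans ?_
  · have := mem_range.1 hx
    rw [sz_nat]; omega
  · rw [length_range]
    exact Nat.add_le_add_right (Nat.mul_le_mul_right _ hi) _

/-- Decidable in polynomial time. -/
@[fun_prop] def PD {α : Type} [Enc α] (p : α → Prop) : Prop :=
  ∃ f : α → Bool, PT f ∧ ∀ a, f a = true ↔ p a

@[fun_prop] lemma PT.ite {p : α → Prop} [∀ a, Decidable (p a)] {u v : α → β} (hp : PD p)
    (hu : PT u) (hv : PT v) : PT fun a => if p a then u a else v a := by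
  obtain ⟨f, h1, h2⟩ := hp
  exact (h1.cond hu hv).congr fun a => by simp only [h2]

@[fun_prop] lemma PT.decide {p : α → Prop} [∀ a, Decidable (p a)] (hp : PD p) :
    PT fun a => decide (p a) :=
  (PT.ite hp (PT.const true) (PT.const false)).congr fun a => by split_ifs with h <;> simp [h]

@[fun_prop] lemma PD.comp {p : β → Prop} {f : α → β} (hp : PD p) (hf : PT f) :
    PD fun a => p (f a) :=
  let ⟨_, h1, h2⟩ := hp; ⟨_, h1.comp hf, fun _ => h2 _⟩

lemma PD.congr {p q : α → Prop} (hp : PD p) (h : ∀ a, p a ↔ q a) : PD q :=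
  let ⟨f, h1, h2⟩ := hp; ⟨f, h1, fun a => (h2 a).trans (h a)⟩

@[fun_prop] lemma PD.not {p : α → Prop} (hp : PD p) : PD fun a => ¬ p a :=
  let ⟨_, h1, h2⟩ := hp
  ⟨_, h1.cond (PT.const false) (PT.const true), fun a => by simp [← h2]⟩

@[fun_prop] lemma PD.and {p q : α → Prop} (hp : PD p) (hq : PD q) : PD fun a => p a ∧ q a :=
  let ⟨_, h1, h2⟩ := hp; let ⟨_, h3, h4⟩ := hq
  ⟨_, h1.cond h3 (PT.const false), fun a => by simp [← h2, ← h4]⟩

@[fun_prop] lemma PD.or {p q : α → Prop} (hp : PD p) (hq : PD q) : PD fun a => p a ∨ q a :=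
  (hp.not.and hq.not).not.congr fun _ => by tauto

lemma PD.isNil {l : α → List β} (hl : PT l) : PD fun a => l a = [] :=
  ⟨_, PT.elim (n := fun _ => true) (c := fun _ _ _ => false) hl (by fun_prop) (by fun_prop),
    fun a => by beta_reduce; cases l a <;> simp [elim]⟩

@[fun_prop] lemma PD.ex {l : α → List β} {p : α → β → Prop} (hl : PT l)
    (hp : PD fun q : α × β => p q.1 q.2) : PD fun a => ∃ x ∈ l a, p a x :=
  let ⟨f, h1, h2⟩ := hp
  (PD.isNil (PT.filter (f := fun a x => f (a, x)) hl h1)).not.congr fun a => by simp [h2]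

lemma PD.all {l : α → List β} {p : α → β → Prop} (hl : PT l)
    (hp : PD fun q : α × β => p q.1 q.2) : PD fun a => ∀ x ∈ l a, p a x :=
  (PD.ex (p := fun a x => ¬ p a x) hl hp.not).not.congr fun a => by simp

@[fun_prop] lemma PD.le {f g : α → ℕ} (hf : PT f) (hg : PT g) : PD fun a => f a ≤ g a :=
  (PD.isNil (hf.sub hg).rep).congr fun _ => by simp [Nat.sub_eq_zero_iff_le]

@[fun_prop] lemma PD.lt {f g : α → ℕ} (hf : PT f) (hg : PT g) : PD fun a => f a < g a :=
  (PD.le hg hf).not.congr fun _ => not_le

/-- Equality is decidable in polynomial time. -/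
class PEq (β : Type) [Enc β] : Prop where
  /-- the proof -/
  eq : PD fun p : β × β => p.1 = p.2

@[fun_prop] lemma PD.eq [PEq β] {f g : α → β} (hf : PT f) (hg : PT g) : PD fun a => f a = g a :=
  PEq.eq.comp (hf.pair hg)

instance : PEq Bool :=
  ⟨⟨fun p => if p.1 then p.2 else if p.2 then false else true,
    PT.cond (by fun_prop) (by fun_prop) (PT.cond (by fun_prop) (by fun_prop) (by fun_prop)),
    by decide⟩⟩

instance [PEq β] : PEq (List β) := by
  have h : PD fun p : List β × List β => (p.1.length ≤ p.2.length ∧ p.2.length ≤ p.1.length) ∧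
      ∀ i ∈ range p.1.length, ∀ x ∈ (p.1.drop i).take 1, ∀ y ∈ (p.2.drop i).take 1, x = y :=
    PD.and (by fun_prop) (PD.all (by fun_prop) (PD.all (by fun_prop) (PD.all (by fun_prop)
      (by fun_prop))))
  refine ⟨h.congr fun p => ⟨fun ⟨⟨h1, h2⟩, h3⟩ => ext_getElem (le_antisymm h1 h2)
    fun i a b => h3 i (mem_range.2 a) _ ?_ _ ?_, fun e => ?_⟩⟩
  · rw [drop_eq_getElem_cons a]; exact mem_cons_self ..
  · rw [drop_eq_getElem_cons b]; exact mem_cons_self ..
  · rw [e]
    refine ⟨⟨le_rfl, le_rfl⟩, fun i hi x hx y hy => ?_⟩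
    rw [drop_eq_getElem_cons (mem_range.1 hi)] at hx hy
    simp only [take_succ_cons, take_zero, mem_singleton] at hx hy
    rw [hx, hy]

@[fun_prop] lemma PD.mem [PEq β] {f : α → β} {l : α → List β} (hf : PT f) (hl : PT l) :
    PD fun a => f a ∈ l a :=
  (PD.ex (p := fun a x => x = f a) hl (by fun_prop)).congr fun _ => by simp

@[fun_prop] lemma PD.pre [PEq β] {f g : α → List β} (hf : PT f) (hg : PT g) :
    PD fun a => f a <+: g a :=
  (PD.eq hf (hf.length.take hg)).congr fun _ => prefix_iff_eq_take.symm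

@[fun_prop] lemma PD.suf [PEq β] {f g : α → List β} (hf : PT f) (hg : PT g) :
    PD fun a => f a <:+ g a := (PD.pre hf.reverse hg.reverse).congr fun _ => reverse_prefix

@[fun_prop] lemma PD.inf [PEq β] {f g : α → List β} (hf : PT f) (hg : PT g) :
    PD fun a => f a <:+: g a := by
  refine (PD.ex (l := fun a => range ((g a).length + 1)) (p := fun a i => f a <+: (g a).drop i)
    (by fun_prop) (by fun_prop)).congr fun a => ⟨?_, fun h => ?_⟩
  · rintro ⟨i, _, h⟩
    exact h.isInfix.trans (drop_suffix _ _).isInfix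
  · obtain ⟨t, h1, h2⟩ := infix_iff_prefix_suffix.1 h
    exact ⟨_, mem_range.2 (Nat.lt_succ_of_le (Nat.sub_le _ t.length)),
      suffix_iff_eq_drop.1 h2 ▸ h1⟩

lemma PT.findG {n : α → ℕ} {p : α → ℕ → Prop} [∀ a, DecidablePred (p a)] (hn : PT n)
    (hp : PD fun q : α × ℕ => p q.1 q.2) : PT fun a => Nat.findGreatest (p a) (n a) := by
  have h1 : PD fun q : α × ℕ × ℕ => p q.1 q.2.2 :=
    hp.comp (f := fun q : α × ℕ × ℕ => (q.1, q.2.2)) (by fun_prop)
  refine (PT.foldA (l := fun a => List.range (n a + 1)) (s := fun _ => 0)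
    (f := fun a m t => if p a t then t else m) (by fun_prop) (by fun_prop)
    (PT.ite h1 (by fun_prop) (by fun_prop)) (t := fun q => sz q.2) (by fun_prop)
    fun a m t => by dsimp only; split_ifs <;> omega).congr fun a => ?_
  induction n a with
  | zero => simp
  | succ k ih => rw [range_succ, foldl_concat, ih, Nat.findGreatest_succ]

@[fun_prop] lemma PT.amax {l : α → List β} {d : α → β} {f : α → β → ℕ} (hl : PT l) (hd : PT d)
    (hf : PT fun p : α × β => f p.1 p.2) : PT fun a => amax (f a) (d a) (l a) := by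
  have h1 : PT fun q : α × β × β => f q.1 q.2.1 :=
    hf.comp (f := fun q : α × β × β => (q.1, q.2.1)) (by fun_prop)
  have h2 : PT fun q : α × β × β => f q.1 q.2.2 :=
    hf.comp (f := fun q : α × β × β => (q.1, q.2.2)) (by fun_prop)
  exact PT.foldA hl (hl.headD hd) (PT.ite (PD.lt h1 h2) (by fun_prop) (by fun_prop))
    (t := fun q => sz q.2) (by fun_prop) fun a m t => by dsimp only; split_ifs <;> omega

@[fun_prop] lemma PT.amin {l : α → List β} {d : α → β} {f : α → β → ℕ} (hl : PT l) (hd : PT d)
    (hf : PT fun p : α × β => f p.1 p.2) : PT fun a => amin (f a) (d a) (l a) := by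
  have h1 : PT fun q : α × β × β => f q.1 q.2.1 :=
    hf.comp (f := fun q : α × β × β => (q.1, q.2.1)) (by fun_prop)
  have h2 : PT fun q : α × β × β => f q.1 q.2.2 :=
    hf.comp (f := fun q : α × β × β => (q.1, q.2.2)) (by fun_prop)
  exact PT.foldA hl (hl.headD hd) (PT.ite (PD.lt h2 h1) (by fun_prop) (by fun_prop))
    (t := fun q => sz q.2) (by fun_prop) fun a m t => by dsimp only; split_ifs <;> omega

@[fun_prop] lemma PT.splits {l : α → List β} (hl : PT l) : PT fun a => splits (l a) := by
  unfold P333.splits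
  fun_prop

@[fun_prop] lemma PT.pfs {l : α → List (List β)} (hl : PT l) : PT fun a => pfs (l a) := by
  unfold P333.pfs
  fun_prop

end Vale.Agent.P333
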