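import Vale.Agent.P333.Stack

/-! Polynomial time functions on encoded data. -/

namespace Vale.Agent.P333

open List

/-- Encodings as trees. -/
class Enc (α : Type) where
  /-- the code -/
  enc : α → V

open Enc

/-- Lists of trees. -/
def vl : List V → V
  | [] => .leaf
  | a :: l => .node a (vl l)

instance : Enc ℕ := ⟨un⟩
instance : Enc Bool := ⟨fun b => if b then .node .leaf .leaf else .leaf⟩
instance {α β : Type} [Enc α] [Enc β] : Enc (α × β) := ⟨fun p => .node (enc p.1) (enc p.2)⟩
instance {α : Type} [Enc α] : Enc (List α) := ⟨fun l => vl (l.map enc)⟩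
instance : Enc V := ⟨id⟩

/-- Length of the code. -/
def sz {α : Type} [Enc α] (a : α) : ℕ := (ser (enc a)).length

variable {α β γ : Type} [Enc α] [Enc β] [Enc γ]

lemma sz_nat (n : ℕ) : sz n = 2 * n + 1 := len_un n
lemma sz_pair (a : α) (b : β) : sz (a, b) = sz a + sz b + 1 := by
  change (true :: (_ ++ _)).length = _
  rw [length_cons, length_append]; rfl
lemma sz_nil : sz ([] : List α) = 1 := rfl
lemma sz_cons (a : α) (l : List α) : sz (a :: l) = sz a + sz l + 1 := sz_pair a l

lemma sz_append (l m : List α) : sz (l ++ m) + 1 = sz l + sz m := by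
  induction l with
  | nil => rw [nil_append, sz_nil]; omega
  | cons a l ih => rw [cons_append, sz_cons, sz_cons]; omega

lemma length_le_sz (l : List α) : l.length ≤ sz l := by
  induction l with
  | nil => simp
  | cons a l ih => rw [sz_cons, List.length_cons]; omega

lemma sz_sub {l m : List α} (h : l <+ m) : sz l ≤ sz m := by
  induction h with
  | slnil => exact le_rfl
  | cons a _ ih => rw [sz_cons]; omega
  | cons_cons a _ ih => rw [sz_cons, sz_cons]; omega

lemma sz_mem {l : List α} {a : α} (h : a ∈ l) : sz a ≤ sz l := by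
  have := sz_sub (singleton_sublist.2 h)
  rw [sz_cons] at this
  omega

lemma sz_list {l : List α} {B : ℕ} (h : ∀ a ∈ l, sz a ≤ B) : sz l ≤ l.length * (B + 1) + 1 := by
  induction l with
  | nil => simp [sz_nil]
  | cons a l ih =>
    have := ih fun x hx => h x (mem_cons_of_mem _ hx)
    have := h a (mem_cons_self ..)
    rw [sz_cons, length_cons, add_mul]
    omega

lemma eval_mono (q : Polynomial ℕ) {a b : ℕ} (h : a ≤ b) : q.eval a ≤ q.eval b := by
  induction q using Polynomial.induction_on' with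
  | add p q hp hq => simp only [Polynomial.eval_add]; omega
  | monomial n c =>
    simp only [Polynomial.eval_monomial]
    exact Nat.mul_le_mul_left _ (Nat.pow_le_pow_left h _)

/-- Polynomially bounded. -/
@[fun_prop] def PB {α : Type} [Enc α] (t : α → ℕ) : Prop :=
  ∃ q : Polynomial ℕ, ∀ a, t a ≤ q.eval (sz a)

/-- Computable in polynomial time. -/
@[fun_prop] def PT {α β : Type} [Enc α] [Enc β] (f : α → β) : Prop :=
  ∃ (P : Prog) (t : α → ℕ), PB t ∧ ∀ a, Impl P (enc a) (enc (f a)) (t a)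

lemma PB.mono {s t : α → ℕ} (h : PB t) (hst : ∀ a, s a ≤ t a) : PB s :=
  let ⟨q, hq⟩ := h; ⟨q, fun a => (hst a).trans (hq a)⟩

@[fun_prop] lemma PB.const (c : ℕ) : PB fun _ : α => c := ⟨Polynomial.C c, by simp⟩

@[fun_prop] lemma PB.add {s t : α → ℕ} (hs : PB s) (ht : PB t) : PB fun a => s a + t a :=
  let ⟨p, hp⟩ := hs; let ⟨q, hq⟩ := ht
  ⟨p + q, fun a => by rw [Polynomial.eval_add]; exact Nat.add_le_add (hp a) (hq a)⟩

@[fun_prop] lemma PB.mul {s t : α → ℕ} (hs : PB s) (ht : PB t) : PB fun a => s a * t a :=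
  let ⟨p, hp⟩ := hs; let ⟨q, hq⟩ := ht
  ⟨p * q, fun a => by rw [Polynomial.eval_mul]; exact Nat.mul_le_mul (hp a) (hq a)⟩

lemma PB.sz_id : PB fun a : α => sz a := ⟨Polynomial.X, by simp⟩

@[fun_prop] lemma PB.sz {f : α → β} (hf : PT f) : PB fun a => sz (f a) := by
  obtain ⟨P, t, h1, h2⟩ := hf
  exact (PB.sz_id.add h1).mono fun a => (h2 a).len

lemma PB.bound {t : β → ℕ} (ht : PB t) {s : α → ℕ} (hs : PB s) :
    ∃ u : α → ℕ, PB u ∧ ∀ a b, P333.sz b ≤ s a → t b ≤ u a := by
  obtain ⟨p, hp⟩ := ht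
  obtain ⟨q, hq⟩ := hs
  exact ⟨fun a => (p.comp q).eval (P333.sz a), ⟨_, fun _ => le_rfl⟩, fun a b h => by
    beta_reduce
    rw [Polynomial.eval_comp]; exact (hp b).trans (eval_mono p (h.trans (hq a)))⟩

lemma PB.comp {t : β → ℕ} {f : α → β} (ht : PB t) (hf : PT f) : PB fun a => t (f a) :=
  let ⟨_, h1, h2⟩ := ht.bound (PB.sz hf); h1.mono fun a => h2 a _ le_rfl

lemma PT.pb {f : α → ℕ} (hf : PT f) : PB f :=
  (PB.sz hf).mono fun a => by rw [sz_nat]; omega

@[fun_prop] lemma PT.id : PT fun a : α => a := ⟨_, _, PB.const 2, fun _ => Impl.skip _⟩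

@[fun_prop] lemma PT.comp {g : β → γ} {f : α → β} (hg : PT g) (hf : PT f) :
    PT fun a => g (f a) := by
  obtain ⟨P, t, h1, h2⟩ := hg
  have h5 := h1.comp hf
  obtain ⟨Q, s, h3, h4⟩ := hf
  exact ⟨_, _, h3.add h5, fun a => (h4 a).seq (h2 _)⟩

@[fun_prop] lemma PT.pair {f : α → β} {g : α → γ} (hf : PT f) (hg : PT g) :
    PT fun a => (f a, g a) := by
  obtain ⟨P, t, h1, h2⟩ := hf
  obtain ⟨Q, s, h3, h4⟩ := hg
  exact ⟨_, _, (((PB.sz_id.mul (PB.const _)).add (h1.mul (PB.const _))).add h3).add (PB.const _),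
    fun a => (h2 a).pair (h4 a)⟩

lemma PT.of_enc {f : α → β} {g : α → γ} (hf : PT f) (h : ∀ a, enc (f a) = enc (g a)) : PT g := by
  obtain ⟨P, t, h1, h2⟩ := hf
  exact ⟨P, t, h1, fun a => h a ▸ h2 a⟩

lemma PT.congr {f g : α → β} (hf : PT f) (h : ∀ a, f a = g a) : PT g :=
  hf.of_enc fun a => congrArg _ (h a)

lemma PT.constV (v : V) : PT fun _ : α => v := by
  induction v with
  | leaf => exact ⟨_, _, (PB.sz_id.mul (PB.const _)).add (PB.const _), fun a => Impl.leaf _⟩
  | node a b ha hb => exact (ha.pair hb).of_enc fun _ => rfl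

@[fun_prop] lemma PT.const (b : β) : PT fun _ : α => b := (PT.constV (enc b)).of_enc fun _ => rfl

@[fun_prop] lemma PT.fst {f : α → β × γ} (hf : PT f) : PT fun a => (f a).1 :=
  PT.comp (g := Prod.fst) ⟨_, _, (PB.sz_id.mul (PB.const 28)).add (PB.const 9), fun p =>
    (Impl.fst _ _).mono (by
      have := sz_pair p.1 p.2
      unfold sz at *
      simp only [Prod.mk.eta] at this
      omega)⟩ hf

@[fun_prop] lemma PT.snd {f : α → β × γ} (hf : PT f) : PT fun a => (f a).2 :=
  PT.comp (g := Prod.snd) ⟨_, _, (PB.sz_id.mul (PB.const 6)).add (PB.const 3), fun p =>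
    (Impl.snd _ _).mono (by
      have := sz_pair p.1 p.2
      unfold sz at *
      simp only [Prod.mk.eta] at this
      omega)⟩ hf

lemma PT.szf {f : α → β} (hf : PT f) : PT fun a => sz (f a) :=
  PT.comp (g := sz) ⟨_, _, (PB.sz_id.mul (PB.const _)).add (PB.const _), fun _ => Impl.size _⟩ hf

@[fun_prop] lemma PT.cons {f : α → β} {g : α → List β} (hf : PT f) (hg : PT g) :
    PT fun a => f a :: g a := (hf.pair hg).of_enc fun _ => rfl

/-- Case distinction on lists. -/
def elim {β γ : Type} (l : List β) (n : γ) (c : β → List β → γ) : γ :=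
  match l with
  | [] => n
  | x :: r => c x r

lemma PT.elim {l : α → List β} {n : α → γ} {c : α → β → List β → γ} (hl : PT l) (hn : PT n)
    (hc : PT fun p : α × β × List β => c p.1 p.2.1 p.2.2) :
    PT fun a => elim (l a) (n a) (c a) := by
  obtain ⟨R, r, h5, h6⟩ := hc
  obtain ⟨u, h7, h8⟩ := h5.bound (PB.sz (PT.id.pair hl))
  obtain ⟨Z, z, h9, h0⟩ := PT.id.pair hl
  obtain ⟨P, t, h1, h2⟩ := hl
  obtain ⟨Q, s, h3, h4⟩ := hn
  refine ⟨.seq dup (.seq P (.ite 0 (.seq drp (.seq Z R)) (.seq drp Q))), _,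
    (((PB.sz_id.mul (PB.const 24)).add (h1.mul (PB.const 7))).add ((h3.add h9).add h7)).add
      (PB.const 7), fun a => ?_⟩
  have k2 := h2 a
  have k0 := h0 a
  have k8 := h8 a
  beta_reduce at *
  generalize l a = m at *
  cases m with
  | nil => exact (k2.iteL (h4 a)).mono (by unfold sz; omega)
  | cons x m =>
    have := k8 (a, x, m) le_rfl
    exact (k2.iteN (k0.seq (h6 (a, x, m)))).mono (by unfold sz; omega)

lemma PT.cond {c : α → Bool} {f g : α → β} (hc : PT c) (hf : PT f) (hg : PT g) :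
    PT fun a => if c a then f a else g a := by
  have h : PT fun a => if c a then [false] else [] := hc.of_enc fun a => by cases c a <;> rfl
  refine (PT.elim (c := fun a _ _ => f a) h hg (by fun_prop)).congr fun a => ?_
  cases c a <;> rfl

lemma PT.iter0 {n : α → ℕ} {s : α → β} {f : β → β} (hn : PT n) (hs : PT s) (hf : PT f)
    {t : α → ℕ} (ht : PB t) (h : ∀ a, ∀ i ≤ n a, sz (f^[i] (s a)) ≤ t a) :
    PT fun a => f^[n a] (s a) := by
  obtain ⟨P, r, h1, h2⟩ := hf
  obtain ⟨u, h3, h4⟩ := h1.bound ht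
  obtain ⟨Q, z, h5, h6⟩ := hn.pair hs
  exact ⟨_, _, h5.add ((hn.pb.mul (h3.add (PB.const _))).add (PB.const _)), fun a =>
    (h6 a).seq (Impl.loop (n a) (fun i => enc (f^[i] (s a))) fun i hi => by
      rw [Function.iterate_succ_apply']
      exact (h2 _).mono (h4 a _ (h a i hi.le)))⟩

lemma PT.iter {n : α → ℕ} {s : α → β} {f : α → β → β} (hn : PT n) (hs : PT s)
    (hf : PT fun p : α × β => f p.1 p.2) {t : α → ℕ} (ht : PB t)
    (h : ∀ a, ∀ i ≤ n a, sz ((f a)^[i] (s a)) ≤ t a) : PT fun a => (f a)^[n a] (s a) := by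
  have e : ∀ a i b, (fun p : α × β => (p.1, f p.1 p.2))^[i] (a, b) = (a, (f a)^[i] b) := by
    intro a i b
    induction i with
    | zero => rfl
    | succ i ih => rw [Function.iterate_succ_apply', Function.iterate_succ_apply', ih]
  have := PT.iter0 (s := fun a => (a, s a)) (f := fun p : α × β => (p.1, f p.1 p.2)) hn
    (by fun_prop) (by fun_prop) ((PB.sz_id.add ht).add (PB.const 1)) fun a i hi => by
      rw [e, sz_pair]
      have := h a i hi
      omega
  simpa only [e] using this.snd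

lemma PT.iterA {n : α → ℕ} {s : α → β} {f : α → β → β} (hn : PT n) (hs : PT s)
    (hf : PT fun p : α × β => f p.1 p.2) {t : α → ℕ} (ht : PB t)
    (h : ∀ a b, sz (f a b) ≤ sz b + t a) : PT fun a => (f a)^[n a] (s a) := by
  refine PT.iter hn hs hf ((PB.sz hs).add (hn.pb.mul ht)) fun a i hi => ?_
  refine le_trans ?_ (Nat.add_le_add_left (Nat.mul_le_mul_right _ hi) _)
  induction i with
  | zero => simp
  | succ i ih =>
    rw [Function.iterate_succ_apply', Nat.succ_mul]
    have := h a ((f a)^[i] (s a))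
    have := ih (by omega)
    omega

lemma PT.foldl {l : α → List γ} {s : α → β} {f : α → β → γ → β} (hl : PT l) (hs : PT s)
    (hf : PT fun p : α × β × γ => f p.1 p.2.1 p.2.2) {t : α → ℕ} (ht : PB t)
    (h : ∀ a i, sz (((l a).take i).foldl (f a) (s a)) ≤ t a) :
    PT fun a => (l a).foldl (f a) (s a) := by
  have e : ∀ a i, (fun p : β × List γ => P333.elim p.2 p fun x r => (f a p.1 x, r))^[i] (s a, l a) =
      (((l a).take i).foldl (f a) (s a), (l a).drop i) := by
    intro a i
    induction i with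
    | zero => rfl
    | succ i ih =>
      rw [Function.iterate_succ_apply', ih]
      by_cases hi : i < (l a).length
      · simp only [drop_eq_getElem_cons hi, P333.elim, take_succ_eq_append_getElem hi, foldl_concat]
      · simp only [drop_eq_nil_of_le (not_lt.1 hi), P333.elim, take_of_length_le (not_lt.1 hi),
          drop_eq_nil_of_le ((not_lt.1 hi).trans i.le_succ),
          take_of_length_le ((not_lt.1 hi).trans i.le_succ)]
  have h1 : PT fun p : (α × β × List γ) × γ × List γ => f p.1.1 p.1.2.1 p.2.1 :=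
    hf.comp (f := fun p : (α × β × List γ) × γ × List γ => (p.1.1, p.1.2.1, p.2.1)) (by fun_prop)
  have := PT.iter (s := fun a => (s a, l a))
    (f := fun a p => P333.elim p.2 p fun x r => (f a p.1 x, r)) hl.szf (by fun_prop)
    (PT.elim (by fun_prop) (by fun_prop) (h1.pair (by fun_prop)))
    ((ht.add (PB.sz hl)).add (PB.const 1)) fun a i _ => by
      rw [e, sz_pair]
      have := h a i
      have := sz_sub (drop_sublist i (l a))
      omega
  refine this.fst.congr fun a => ?_
  rw [e, take_of_length_le (length_le_sz _)]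

lemma PT.foldA {l : α → List γ} {s : α → β} {f : α → β → γ → β} (hl : PT l) (hs : PT s)
    (hf : PT fun p : α × β × γ => f p.1 p.2.1 p.2.2) {t : α × γ → ℕ} (ht : PB t)
    (h : ∀ a b x, sz (f a b x) ≤ sz b + t (a, x)) : PT fun a => (l a).foldl (f a) (s a) := by
  obtain ⟨u, h1, h2⟩ := ht.bound (PB.sz (PT.id.pair hl))
  refine PT.foldl hl hs hf ((PB.sz hs).add ((PB.sz hl).mul h1)) fun a i => ?_
  have key : ∀ (m : List γ) (b : β), (∀ x ∈ m, x ∈ l a) →
      sz (m.foldl (f a) b) ≤ sz b + m.length * u a := by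
    intro m
    induction m with
    | nil => simp
    | cons x m ih =>
      intro b hm
      have a1 := ih (f a b x) fun y hy => hm y (mem_cons_of_mem _ hy)
      have a2 := h a b x
      have a3 := h2 a (a, x) (by
        have := sz_mem (hm x (mem_cons_self ..))
        simp only [sz_pair]; omega)
      rw [foldl_cons, length_cons, Nat.succ_mul]
      omega
  refine (key _ _ fun x hx => mem_of_mem_take hx).trans (Nat.add_le_add_left
    (Nat.mul_le_mul_right _ ?_) _)
  exact (length_le_sz _).trans (sz_sub (take_sublist _ _))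

theorem PT.tm {f : α → β} (hf : PT f) :
    ∃ M : Turing.TM2ComputableInPolyTime (fun a => ser (enc a)) (fun b => ser (enc b)) f,
      ∀ k, Finite (M.tm.Γ k) := by
  obtain ⟨p, hp⟩ := PB.sz hf
  obtain ⟨P, t, ⟨q, hq⟩, h⟩ := hf
  refine exists_tm (.seq P (mv 0 1)) _ _ _ (q + (p * 11 + 3)) fun a => ?_
  have e0 : (fun _ => [] : St) = mk [] [] [] [] [] [] := by
    funext r; rcases r with _ | _ | _ | _ | _ | _ | r <;> rfl
  rw [e0, u0, u1]
  have := (h a [] []).seq (mv01 _)
  rw [append_nil] at this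
  refine this.mono ?_
  have := hp a
  have := hq a
  beta_reduce at *
  unfold sz at *
  simp only [Polynomial.eval_add, Polynomial.eval_mul, Polynomial.eval_ofNat]
  omega

end Vale.Agent.P333
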