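import Vale.Agent.P333.TM

/-! Stack programs acting on serialised binary trees. -/

namespace Vale.Agent.P333

open Function List

/-- Binary trees. -/
inductive V : Type
  | leaf : V
  | node : V → V → V

/-- Serialisation. -/
def ser : V → List Bool
  | .leaf => [false]
  | .node a b => true :: (ser a ++ ser b)

/-- Runs within a cost bound. -/
def R (P : Prog) (S S' : St) (m : ℕ) : Prop := ∃ t ≤ m, Run P S S' t

lemma R.mono {P : Prog} {S S' : St} {m n : ℕ} (h : R P S S' m) (hmn : m ≤ n) : R P S S' n := by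
  obtain ⟨t, ht, h⟩ := h
  exact ⟨t, ht.trans hmn, h⟩

lemma R.seq {P Q : Prog} {S S' S'' : St} {m n : ℕ} (h : R P S S' m) (h' : R Q S' S'' n) :
    R (.seq P Q) S S'' (m + n) := by
  obtain ⟨t, ht, h⟩ := h
  obtain ⟨t', ht', h'⟩ := h'
  exact ⟨t + t', Nat.add_le_add ht ht', h.seq h'⟩

lemma R.push {r : ℕ} {b : Bool} {S S' : St} (h : update S r (b :: S r) = S') :
    R (.push r b) S S' 1 := ⟨1, le_rfl, h ▸ Run.push r b S⟩

lemma R.pop {r : ℕ} {S S' : St} (h : update S r (S r).tail = S') : R (.pop r) S S' 1 :=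
  ⟨1, le_rfl, h ▸ Run.pop r S⟩

lemma R.stop {r : ℕ} {P : Prog} {S : St} (h : (S r).head? ≠ some true) : R (.loop r P) S S 1 :=
  ⟨1, le_rfl, Run.stop h⟩

lemma R.go {r : ℕ} {P : Prog} {S S' S'' : St} {m n : ℕ} (h : (S r).head? = some true)
    (h1 : R P S S' m) (h2 : R (.loop r P) S' S'' n) : R (.loop r P) S S'' (1 + m + n) := by
  obtain ⟨t, ht, h1⟩ := h1
  obtain ⟨t', ht', h2⟩ := h2
  exact ⟨_, by omega, Run.go h h1 h2⟩

lemma R.yes {r : ℕ} {P Q : Prog} {S S' : St} {m : ℕ} (h : (S r).head? = some true)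
    (h1 : R P S S' m) : R (.ite r P Q) S S' (m + 1) := by
  obtain ⟨t, ht, h1⟩ := h1
  exact ⟨_, by omega, Run.yes h h1⟩

lemma R.no {r : ℕ} {P Q : Prog} {S S' : St} {m : ℕ} (h : (S r).head? ≠ some true)
    (h1 : R Q S S' m) : R (.ite r P Q) S S' (m + 1) := by
  obtain ⟨t, ht, h1⟩ := h1
  exact ⟨_, by omega, Run.no h h1⟩

lemma Run.len {P : Prog} {S S' : St} {t : ℕ} (h : Run P S S' t) (r : ℕ) :
    (S' r).length ≤ (S r).length + t := by
  induction h with
  | push r' b S =>
    by_cases e : r = r'
    · subst e; simp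
    · simp [update_of_ne e]
  | pop r' S =>
    by_cases e : r = r'
    · subst e; simp; omega
    · simp [update_of_ne e]
  | seq _ _ ih1 ih2 => omega
  | stop _ => omega
  | go _ _ _ ih1 ih2 => omega
  | yes _ _ ih => omega
  | no _ _ ih => omega

/-- Loop body reading one bit. -/
def scanB (X : ℕ) (act : Bool → Prog) : Prog :=
  .ite X (.seq (.pop X) (.seq (act true) (.push 5 true))) (.seq (.pop X) (.seq (act false) (.pop 5)))

/-- Read one tree. -/
def scan (X : ℕ) (act : Bool → Prog) : Prog := .seq (.push 5 true) (.loop 5 (scanB X act))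

section

variable {U : Type} {X k : ℕ} {act : Bool → Prog} (σ : List Bool → List Bool → U → St)
  (φ : U → Bool → U) (hX : ∀ x c u, σ x c u X = x) (hC : ∀ x c u, σ x c u 5 = c)
  (uX : ∀ x c u y, update (σ x c u) X y = σ y c u) (uC : ∀ x c u y, update (σ x c u) 5 y = σ x y u)
  (ha : ∀ b x c u, R (act b) (σ x c u) (σ x c (φ u b)) k)

include hX hC uX uC ha

lemma scan_aux (v : V) : ∀ rest c u S' n,
    R (.loop 5 (scanB X act)) (σ rest c ((ser v).foldl φ u)) S' n →
    R (.loop 5 (scanB X act)) (σ (ser v ++ rest) (true :: c) u) S' (n + (ser v).length * (k + 4)) := by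
  induction v with
  | leaf =>
    intro rest c u S' n h
    refine (R.go (by simp [hC]) (R.no (by simp [hX, ser]) ((R.pop (uX _ _ _ _)).seq
      ((ha _ _ _ _).seq (R.pop (uC _ _ _ _))))) (by simpa [hX, hC, ser, scanB] using h)).mono ?_
    simp [ser]; omega
  | node a b iha ihb =>
    intro rest c u S' n h
    rw [ser, foldl_cons, foldl_append] at h
    have := iha _ _ _ _ _ (ihb _ _ _ _ _ h)
    refine (R.go (by simp [hC]) (R.yes (by simp [hX, ser]) ((R.pop (uX _ _ _ _)).seq
      ((ha _ _ _ _).seq (R.push (uC _ _ _ _))))) (by simpa [hX, hC, ser, scanB] using this)).mono ?_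
    simp [ser, add_mul]; omega

lemma scan_run (v : V) (rest : List Bool) (u : U) :
    R (scan X act) (σ (ser v ++ rest) [] u) (σ rest [] ((ser v).foldl φ u))
      ((ser v).length * (k + 4) + 2) := by
  refine ((R.push (uC _ _ _ _)).seq (by
    simpa [hC] using scan_aux σ φ hX hC uX uC ha v rest [] u _ 1 (R.stop (by simp [hC])))).mono ?_
  omega

end

/-- Marked bits. -/
def dbl (l : List Bool) : List Bool := l.flatMap fun b => [true, b]

lemma fold_dbl (l t : List Bool) :
    l.foldl (fun t b => true :: b :: t) t = dbl l.reverse ++ t := by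
  induction l generalizing t with
  | nil => rfl
  | cons b l ih => simp [ih, dbl]

/-- Write marked bits back. -/
def drain (T Y : ℕ) : Prog :=
  .loop T (.seq (.pop T) (.ite T (.seq (.pop T) (.push Y true)) (.seq (.pop T) (.push Y false))))

lemma drain_run {T Y : ℕ} (σ : List Bool → List Bool → St) (hT : ∀ t y, σ t y T = t)
    (hY : ∀ t y, σ t y Y = y) (uT : ∀ t y z, update (σ t y) T z = σ z y)
    (uY : ∀ t y z, update (σ t y) Y z = σ t z) (l y : List Bool) :
    R (drain T Y) (σ (dbl l) y) (σ [] (l.reverse ++ y)) (l.length * 5 + 1) := by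
  induction l generalizing y with
  | nil => exact (R.stop (by simp [hT, dbl])).mono (by simp)
  | cons b l ih =>
    have := ih (b :: y)
    cases b
    · refine (R.go (by simp [hT, dbl]) ((R.pop (uT _ _ _)).seq (R.no (by simp [hT, dbl])
        ((R.pop (uT _ _ _)).seq (R.push (uY _ _ _))))) (by simpa [hT, hY, dbl, drain] using this)).mono ?_
      simp; omega
    · refine (R.go (by simp [hT, dbl]) ((R.pop (uT _ _ _)).seq (R.yes (by simp [hT, dbl])
        ((R.pop (uT _ _ _)).seq (R.push (uY _ _ _))))) (by simpa [hT, hY, dbl, drain] using this)).mono ?_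
      simp; omega

/-- The six registers. -/
def mk (a o b t u c : List Bool) : St
  | 0 => a
  | 1 => o
  | 2 => b
  | 3 => t
  | 4 => u
  | 5 => c
  | _ + 6 => []

section

variable (a o b t u c y : List Bool)

lemma u0 : update (mk a o b t u c) 0 y = mk y o b t u c := by
  funext r; rcases r with _ | _ | _ | _ | _ | _ | r <;> simp [mk]
lemma u1 : update (mk a o b t u c) 1 y = mk a y b t u c := by
  funext r; rcases r with _ | _ | _ | _ | _ | _ | r <;> simp [mk]
lemma u2 : update (mk a o b t u c) 2 y = mk a o y t u c := by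
  funext r; rcases r with _ | _ | _ | _ | _ | _ | r <;> simp [mk]
lemma u3 : update (mk a o b t u c) 3 y = mk a o b y u c := by
  funext r; rcases r with _ | _ | _ | _ | _ | _ | r <;> simp [mk]
lemma u4 : update (mk a o b t u c) 4 y = mk a o b t y c := by
  funext r; rcases r with _ | _ | _ | _ | _ | _ | r <;> simp [mk]
lemma u5 : update (mk a o b t u c) 5 y = mk a o b t u y := by
  funext r; rcases r with _ | _ | _ | _ | _ | _ | r <;> simp [mk]

end

/-- Store a marked bit. -/
def mark (T : ℕ) (b : Bool) : Prog := .seq (.push T b) (.push T true)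

/-- Move one tree. -/
def mv (X Y : ℕ) : Prog := .seq (scan X (mark 3)) (drain 3 Y)

/-- Do nothing. -/
def skip : Prog := .seq (.push 3 true) (.pop 3)

/-- Delete one tree. -/
def drp : Prog := scan 0 fun _ => skip

/-- Copy one tree. -/
def dup : Prog :=
  .seq (scan 0 fun b => .seq (mark 3 b) (mark 4 b)) (.seq (drain 3 0) (drain 4 0))

/-- States between the instructions. -/
abbrev st (a b : List Bool) : St := mk a [] b [] [] []

lemma mark3 (a o b t u c : List Bool) (x : Bool) :
    R (mark 3 x) (mk a o b t u c) (mk a o b (true :: x :: t) u c) 2 :=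
  (R.push (u3 ..)).seq (R.push (u3 ..))

lemma skip_run (a o b t u c : List Bool) : R skip (mk a o b t u c) (mk a o b t u c) 2 :=
  (R.push (u3 ..)).seq (R.pop (u3 ..))

lemma scan0 (v : V) (a b : List Bool) : R (scan 0 (mark 3)) (st (ser v ++ a) b)
    (mk a [] b (dbl (ser v).reverse) [] []) ((ser v).length * 6 + 2) := by
  simpa [fold_dbl] using scan_run (act := mark 3) (fun x c t => mk x [] b t [] c) (fun t b => true :: b :: t)
    (fun _ _ _ => rfl) (fun _ _ _ => rfl) (fun _ _ _ _ => u0 ..) (fun _ _ _ _ => u5 ..)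
    (fun _ _ _ _ => mark3 ..) v a []

lemma mv02 (v : V) (a b : List Bool) :
    R (mv 0 2) (st (ser v ++ a) b) (st a (ser v ++ b)) ((ser v).length * 11 + 3) := by
  refine ((scan0 v a b).seq (by
    simpa using drain_run (fun t y => mk a [] y t [] []) (fun _ _ => rfl) (fun _ _ => rfl)
      (fun _ _ _ => u3 ..) (fun _ _ _ => u2 ..) (ser v).reverse b)).mono ?_
  omega

lemma mv01 (v : V) :
    R (mv 0 1) (st (ser v ++ []) []) (mk [] (ser v) [] [] [] []) ((ser v).length * 11 + 3) := by
  refine ((scan0 v [] []).seq (by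
    simpa using drain_run (fun t y => mk [] y [] t [] []) (fun _ _ => rfl) (fun _ _ => rfl)
      (fun _ _ _ => u3 ..) (fun _ _ _ => u1 ..) (ser v).reverse [])).mono ?_
  omega

lemma mv20 (v : V) (a b : List Bool) :
    R (mv 2 0) (st a (ser v ++ b)) (st (ser v ++ a) b) ((ser v).length * 11 + 3) := by
  have h : R (scan 2 (mark 3)) (st a (ser v ++ b))
      (mk a [] b (dbl (ser v).reverse) [] []) ((ser v).length * 6 + 2) := by
    simpa [fold_dbl] using scan_run (act := mark 3) (fun x c t => mk a [] x t [] c) (fun t b => true :: b :: t)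
      (fun _ _ _ => rfl) (fun _ _ _ => rfl) (fun _ _ _ _ => u2 ..) (fun _ _ _ _ => u5 ..)
      (fun _ _ _ _ => mark3 ..) v b []
  refine (h.seq (by
    simpa using drain_run (fun t y => mk y [] b t [] []) (fun _ _ => rfl) (fun _ _ => rfl)
      (fun _ _ _ => u3 ..) (fun _ _ _ => u0 ..) (ser v).reverse a)).mono ?_
  omega

lemma drp_run (v : V) (a b : List Bool) :
    R drp (st (ser v ++ a) b) (st a b) ((ser v).length * 6 + 2) :=
  scan_run (fun x c (_ : Unit) => mk x [] b [] [] c) (fun u _ => u)
    (fun _ _ _ => rfl) (fun _ _ _ => rfl) (fun _ _ _ _ => u0 ..) (fun _ _ _ _ => u5 ..)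
    (fun _ _ _ _ => skip_run ..) v a ()

lemma dup_run (v : V) (a b : List Bool) :
    R dup (st (ser v ++ a) b) (st (ser v ++ (ser v ++ a)) b) ((ser v).length * 18 + 4) := by
  have h : R (scan 0 fun b => .seq (mark 3 b) (mark 4 b)) (st (ser v ++ a) b)
      (mk a [] b (dbl (ser v).reverse) (dbl (ser v).reverse) []) ((ser v).length * 8 + 2) := by
    simpa [fold_dbl, mark] using scan_run (fun x c t => mk x [] b t t c) (fun t b => true :: b :: t)
      (fun _ _ _ => rfl) (fun _ _ _ => rfl) (fun _ _ _ _ => u0 ..) (fun _ _ _ _ => u5 ..)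
      (fun _ _ _ _ => (mark3 ..).seq ((R.push (u4 ..)).seq (R.push (u4 ..)))) v a []
  have h1 := drain_run (fun t y => mk y [] b t (dbl (ser v).reverse) []) (fun _ _ => rfl)
    (fun _ _ => rfl) (fun _ _ _ => u3 ..) (fun _ _ _ => u0 ..) (ser v).reverse a
  have h2 := drain_run (fun t y => mk y [] b [] t []) (fun _ _ => rfl)
    (fun _ _ => rfl) (fun _ _ _ => u4 ..) (fun _ _ _ => u0 ..) (ser v).reverse (ser v ++ a)
  rw [reverse_reverse, length_reverse] at h1 h2
  exact (h.seq (h1.seq h2)).mono (by omega)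

/-- The program maps `v` to `w` within time `t`. -/
def Impl (P : Prog) (v w : V) (t : ℕ) : Prop :=
  ∀ a b, R P (st (ser v ++ a) b) (st (ser w ++ a) b) t

lemma Impl.mono {P : Prog} {v w : V} {t s : ℕ} (h : Impl P v w t) (hs : t ≤ s) : Impl P v w s :=
  fun a b => (h a b).mono hs

lemma Impl.len {P : Prog} {v w : V} {t : ℕ} (h : Impl P v w t) :
    (ser w).length ≤ (ser v).length + t := by
  obtain ⟨s, h1, h2⟩ := h [] []
  have := h2.len 0
  simp only [st, mk, append_nil] at this
  omega

lemma Impl.skip (v : V) : Impl skip v v 2 := fun _ _ => skip_run ..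

lemma Impl.seq {P Q : Prog} {u v w : V} {t s : ℕ} (h : Impl P u v t) (h' : Impl Q v w s) :
    Impl (.seq P Q) u w (t + s) := fun a b => (h a b).seq (h' a b)

lemma Impl.leaf (v : V) : Impl (.seq drp (.push 0 false)) v .leaf ((ser v).length * 6 + 3) :=
  fun a b => (drp_run v a b).seq (R.push (u0 ..))

lemma Impl.snd (v w : V) : Impl (.seq (.pop 0) drp) (.node v w) w ((ser v).length * 6 + 3) :=
  fun a b => ((R.pop (u0 ..)).seq (by simpa [st, mk, ser] using drp_run v (ser w ++ a) b)).mono
    (by omega)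

lemma Impl.fst (v w : V) : Impl (.seq (.pop 0) (.seq (mv 0 2) (.seq drp (mv 2 0)))) (.node v w) v
    ((ser v).length * 22 + (ser w).length * 6 + 9) :=
  fun a b => ((R.pop (u0 ..)).seq (by
    simpa [st, mk, ser] using (mv02 v (ser w ++ a) b).seq
      ((drp_run w a (ser v ++ b)).seq (mv20 v a b)))).mono (by omega)

lemma Impl.pair {P Q : Prog} {v w x : V} {t s : ℕ} (h : Impl P v w t) (h' : Impl Q v x s) :
    Impl (.seq dup (.seq P (.seq (mv 0 2) (.seq Q (.seq (mv 2 0) (.push 0 true)))))) v (.node w x)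
      ((ser v).length * 40 + t * 23 + s + 11) := fun a b => by
  have := h.len
  refine ((dup_run v a b).seq ((h _ b).seq ((mv02 w _ b).seq ((h' a _).seq
    ((mv20 w _ b).seq (R.push ((u0 ..).trans ?_))))))).mono (by omega)
  simp [st, mk, ser]

lemma Impl.iteL {C P Q : Prog} {v w : V} {t s : ℕ} (h : Impl C v .leaf t) (h' : Impl P v w s) :
    Impl (.seq dup (.seq C (.ite 0 (.seq drp Q) (.seq drp P)))) v w
      ((ser v).length * 24 + t * 7 + s + 7) := fun a b => by
  have := h.len
  exact ((dup_run v a b).seq ((h _ b).seq (R.no (by simp [st, mk, ser])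
    ((drp_run _ _ b).seq (h' a b))))).mono (by omega)

lemma Impl.iteN {C P Q : Prog} {v w x y : V} {t s : ℕ} (h : Impl C v (.node x y) t)
    (h' : Impl Q v w s) : Impl (.seq dup (.seq C (.ite 0 (.seq drp Q) (.seq drp P)))) v w
      ((ser v).length * 24 + t * 7 + s + 7) := fun a b => by
  have := h.len
  exact ((dup_run v a b).seq ((h _ b).seq (R.yes (by simp [st, mk, ser])
    ((drp_run _ _ b).seq (h' a b))))).mono (by omega)

/-- Unary numbers. -/
def un : ℕ → V
  | 0 => .leaf
  | n + 1 => .node .leaf (un n)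

lemma len_un (n : ℕ) : (ser (un n)).length = 2 * n + 1 := by
  induction n with
  | zero => rfl
  | succ n ih => simp [un, ser, ih]; omega

lemma Impl.loop {P : Prog} {t : ℕ} (n : ℕ) (x : ℕ → V) (h : ∀ i < n, Impl P (x i) (x (i + 1)) t) :
    Impl (.seq (.pop 0) (.seq (mv 0 2) (.seq (.loop 2 (.seq (.pop 2) (.seq (.pop 2) P))) (.pop 2))))
      (.node (un n) (x 0)) (x n) (n * (t + 25) + 17) := fun a b => by
  have key : ∀ (n : ℕ) (x : ℕ → V), (∀ i < n, Impl P (x i) (x (i + 1)) t) →
      R (.loop 2 (.seq (.pop 2) (.seq (.pop 2) P))) (st (ser (x 0) ++ a) (ser (un n) ++ b))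
        (st (ser (x n) ++ a) (false :: b)) (n * (t + 3) + 1) := by
    intro n
    induction n with
    | zero => exact fun x _ => (R.stop (by simp [st, mk, ser, un])).mono (by simp)
    | succ n ih =>
      intro x h
      refine (R.go (by simp [mk, ser, un]) ((R.pop (u2 ..)).seq ((R.pop (u2 ..)).seq
        (h 0 (by omega) a _))) (ih (fun i => x (i + 1)) fun i hi => h _ (by omega))).mono ?_
      rw [add_mul]; omega
  have e := len_un n
  refine ((R.pop (u0 ..)).seq (by
    simpa [st, mk, ser] using (mv02 (un n) (ser (x 0) ++ a) b).seq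
      ((key n x h).seq (R.pop (u2 ..))))).mono ?_
  rw [e, mul_add, mul_add]; omega

lemma Impl.size (v : V) : Impl (.seq (scan 0 (mark 3)) (.seq (.push 0 false)
    (.loop 3 (.seq (.pop 3) (.seq (.pop 3) (.seq (.push 0 false) (.push 0 true))))))) v
      (un (ser v).length) ((ser v).length * 11 + 4) := fun a b => by
  have key : ∀ (l : List Bool) (n : ℕ),
      R (.loop 3 (.seq (.pop 3) (.seq (.pop 3) (.seq (.push 0 false) (.push 0 true)))))
        (mk (ser (un n) ++ a) [] b (dbl l) [] []) (st (ser (un (n + l.length)) ++ a) b)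
        (l.length * 5 + 1) := by
    intro l
    induction l with
    | nil => exact fun n => (R.stop (by simp [mk, dbl])).mono (by simp)
    | cons x l ih =>
      intro n
      refine (R.go (by simp [mk, dbl]) ((R.pop (u3 ..)).seq ((R.pop (u3 ..)).seq
        ((R.push (u0 ..)).seq (R.push (u0 ..))))) (by
          rw [length_cons, ← add_assoc, add_right_comm]; exact ih (n + 1))).mono ?_
      rw [length_cons]; omega
  have := key (ser v).reverse 0
  rw [length_reverse, zero_add] at this
  exact ((scan0 v a b).seq ((R.push (u0 ..)).seq this)).mono (by omega)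

end Vale.Agent.P333
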