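import Vale.Agent.P333.Basic

/-! Tree surgery. -/

namespace Vale.Agent.P333

open List

variable {α : Type} [DecidableEq α]

/-- The address `A` ends with a later copy of the tail of `Y`. -/
def Cfg (A Y : List α) (k : ℕ) : Prop := k ≤ Y.length ∧ ∃ P, A = P ++ Y.drop k ∧ k < P.length

/-- New attachment depth. -/
def dep (A Y : List α) (k d : ℕ) : ℕ :=
  Nat.findGreatest (fun j => (Y.take d).drop k <:+ A.take j) A.length

lemma mov_eq (A Y : List α) (k : ℕ) (z : List α) :
    mov A Y k z = A.take (dep A Y k (lcp z Y)) ++ z.drop (lcp z Y) := rfl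

variable {A Y X z s : List α} {k : ℕ}

omit [DecidableEq α] in
lemma pre_app {q u v : List α} : q <+: u ++ v ↔ q <+: u ∨ ∃ r, q = u ++ r ∧ r <+: v := by
  constructor
  · intro h
    rcases prefix_or_prefix_of_prefix h (prefix_append u v) with h1 | ⟨r, rfl⟩
    · exact Or.inl h1
    · exact Or.inr ⟨r, rfl, (prefix_append_right_inj _).1 h⟩
  · rintro (h | ⟨r, rfl, h⟩)
    · exact h.trans (prefix_append _ _)
    · exact (prefix_append_right_inj _).2 h

omit [DecidableEq α] in
lemma Cfg.shift (h : Cfg A Y k) {c : List α} {j : ℕ} (hj : j ≤ Y.length) (hc : c <:+ Y.take j)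
    (hl : c.length ≤ j - k) : ∃ i, j < i ∧ i ≤ A.length ∧ c <:+ A.take i := by
  obtain ⟨hk, P, rfl, hP⟩ := h
  by_cases hjk : j < k
  · have : c = [] := length_eq_zero_iff.1 (by omega)
    exact ⟨_, by simp; omega, le_rfl, by simp [this]⟩
  refine ⟨P.length + (j - k), by omega, by simp; omega, ?_⟩
  rw [take_length_add_append, ← drop_take]
  refine (suffix_of_suffix_length_le hc (drop_suffix _ _) ?_).trans (suffix_append _ _)
  simp; omega

lemma Cfg.dep_spec (h : Cfg A Y k) {d : ℕ} (hd : d ≤ Y.length) :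
    d < dep A Y k d ∧ dep A Y k d ≤ A.length ∧ (Y.take d).drop k <:+ A.take (dep A Y k d) := by
  obtain ⟨i, h1, h2, h3⟩ := h.shift hd (drop_suffix k _) (by simp; omega)
  exact ⟨h1.trans_le (Nat.le_findGreatest h2 h3), Nat.findGreatest_le _,
    Nat.findGreatest_spec (P := fun j => (Y.take d).drop k <:+ A.take j) h2 h3⟩

lemma Cfg.dep_ge (h : Cfg A Y k) (hY : Y <+: A) {d : ℕ} (hd : d ≤ Y.length) :
    Y.length ≤ dep A Y k d := by
  by_contra hlt
  obtain ⟨h1, _, h3⟩ := h.dep_spec hd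
  have e : A.take (dep A Y k d) = Y.take (dep A Y k d) := by
    obtain ⟨r, rfl⟩ := hY
    rw [take_append_of_le_length (by omega)]
  rw [e] at h3
  obtain ⟨i, i1, i2, i3⟩ := h.shift (by omega) h3 (by simp; omega)
  have : i ≤ dep A Y k d := Nat.le_findGreatest i2 i3
  omega

lemma Cfg.mov_full (h : Cfg A Y k) (hz : Y <+: z) : mov A Y k z = A ++ z.drop Y.length := by
  have e : lcp z Y = Y.length := le_antisymm (lcp_le' _ _) (le_lcp hz (prefix_refl _))
  have : dep A Y k Y.length = A.length := by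
    refine le_antisymm (Nat.findGreatest_le _) (Nat.le_findGreatest le_rfl ?_)
    obtain ⟨_, P, rfl, _⟩ := h
    rw [take_length, take_length]
    exact suffix_append _ _
  rw [mov_eq, e, this, take_length]

lemma Cfg.mov_len (h : Cfg A Y k) (z : List α) : z.length ≤ (mov A Y k z).length := by
  obtain ⟨h1, h2, _⟩ := h.dep_spec (lcp_le' z Y)
  have := lcp_le z Y
  rw [mov_eq]
  simp; omega

lemma Cfg.mov_suf (h : Cfg A Y k) (hs : s <:+ z) (hl : k + s.length ≤ z.length) :
    s <:+ mov A Y k z := by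
  obtain ⟨_, _, h3⟩ := h.dep_spec (lcp_le' z Y)
  rw [lcp_take] at h3
  have h4 : s <:+ z.drop k := suffix_of_suffix_length_le hs (drop_suffix _ _) (by simp; omega)
  refine h4.trans ?_
  rw [mov_eq]
  refine IsSuffix.trans ?_ (suffix_append_self_iff.2 h3)
  by_cases hk : k ≤ lcp z Y
  · have := lcp_le z Y
    rw [← drop_append_of_le_length (by simp; omega), take_append_drop]
  · refine IsSuffix.trans ?_ (suffix_append _ _)
    exact drop_suffix_drop_left _ (by omega)

lemma Cfg.fm_pre (h : Cfg A Y k) (hA : X <+: A) (hX : X.length ≤ lcp A Y) (hz : X <+: z) :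
    X <+: fm A Y k z := by
  unfold fm
  split_ifs with h1
  · obtain ⟨h2, _, _⟩ := h.dep_spec (lcp_le' z Y)
    rw [mov_eq]
    exact (prefix_take_iff.2 ⟨hA, by omega⟩).trans (prefix_append _ _)
  · exact hz

lemma Cfg.fm_suf (h : Cfg A Y k) (hs : s <:+ z) (hl : k + s.length ≤ z.length) :
    s <:+ fm A Y k z := by
  unfold fm
  split_ifs
  · exact h.mov_suf hs hl
  · exact hs

lemma fm_fix {q : List α} (h : lcp q Y ≤ lcp A Y) : fm A Y k q = q := by
  unfold fm
  rw [if_neg (by omega)]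

lemma mov_cut {r : List α} (h : r <+: z.drop (lcp z Y)) :
    mov A Y k (z.take (lcp z Y) ++ r) = A.take (dep A Y k (lcp z Y)) ++ r := by
  rw [mov_eq, (lcp_cut h).2, drop_left' (by simp [lcp_le])]

lemma nodes_fm {l : List (List α)} (hA : A ∈ l) (hX : X <+: A) :
    nodes (X :: l.map (fm A Y k)) ≤ nodes (X :: l) := by
  refine le_trans (Finset.card_le_card fun q hq => ?_)
    (Finset.card_image_le (f := fm A Y k))
  have key : ∀ q, q <+: A → q ∈ (pfs (X :: l)).toFinset.image (fm A Y k) := fun q hq =>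
    Finset.mem_image.2 ⟨q, mem_toFinset.2 (mem_pfs.2 ⟨A, mem_cons_of_mem _ hA, hq⟩),
      fm_fix (lcp_mono _ hq)⟩
  replace hq := mem_pfs.1 (mem_toFinset.1 hq)
  obtain ⟨w, hw, hq⟩ := hq
  rcases mem_cons.1 hw with rfl | hw
  · exact key q (hq.trans hX)
  obtain ⟨z, hz, rfl⟩ := mem_map.1 hw
  by_cases h1 : lcp A Y < lcp z Y
  · rw [fm, if_pos h1, mov_eq] at hq
    rcases pre_app.1 hq with hq | ⟨r, rfl, hr⟩
    · exact key q (hq.trans (take_prefix _ _))
    · refine Finset.mem_image.2 ⟨_, mem_toFinset.2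
        (mem_pfs.2 ⟨z, mem_cons_of_mem _ hz, (lcp_cut hr).1⟩), ?_⟩
      rw [fm, (lcp_cut hr).2, if_pos h1, mov_cut hr]
  · rw [fm, if_neg h1] at hq
    exact Finset.mem_image.2 ⟨q, mem_toFinset.2 (mem_pfs.2 ⟨z, mem_cons_of_mem _ hz, hq⟩),
      fm_fix ((lcp_mono _ hq).trans (by omega))⟩

lemma Cfg.mov_pre (h : Cfg A Y k) (hY : Y <+: A) (z : List α) :
    Y <+: A.take (dep A Y k (lcp z Y)) :=
  prefix_take_iff.2 ⟨hY, h.dep_ge hY (lcp_le' z Y)⟩

lemma Cfg.fp_suf (h : Cfg A Y k) (hY : Y <+: A) (hX : Y.drop k <:+ X) (hs : s <:+ z)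
    (hl : k + s.length ≤ z.length) : s <:+ fp X A Y k z := by
  have key : ∀ w, Y <+: w → s <:+ w → k + s.length ≤ w.length → s <:+ X ++ w.drop Y.length := by
    rintro w ⟨r, rfl⟩ h1 h2
    have h4 : s <:+ (Y ++ r).drop k :=
      suffix_of_suffix_length_le h1 (drop_suffix _ _) (by rw [length_drop]; omega)
    rw [drop_append_of_le_length h.1] at h4
    rw [drop_left]
    exact h4.trans (suffix_append_self_iff.2 hX)
  unfold fp
  split_ifs with h1
  · exact key z h1 hs hl
  · exact key _ ((h.mov_pre hY z).trans (prefix_append _ _)) (h.mov_suf hs hl)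
      (hl.trans (h.mov_len z))

lemma Cfg.nodes_fp (h : Cfg A Y k) (hY : Y <+: A) {l l' : List (List α)} (hA : A ∈ l)
    (hl : l' ⊆ l) : nodes (X :: l'.map (fp X A Y k)) + Y.length ≤ nodes l + X.length := by
  have h0 : (pfs [Y]).toFinset ⊆ (pfs l).toFinset := fun q hq => by
    obtain ⟨w, hw, hq⟩ := mem_pfs.1 (mem_toFinset.1 hq)
    rw [mem_singleton.1 hw] at hq
    exact mem_toFinset.2 (mem_pfs.2 ⟨A, hA, hq.trans hY⟩)
  have h1 : (pfs (X :: l'.map (fp X A Y k))).toFinset ⊆ (pfs [X]).toFinset ∪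
      ((pfs l).toFinset \ (pfs [Y]).toFinset).image (fp X A Y k) := fun q hq => by
    have k0 : ∀ q, q <+: X → q ∈ (pfs [X]).toFinset ∪
        ((pfs l).toFinset \ (pfs [Y]).toFinset).image (fp X A Y k) := fun q hq =>
      Finset.mem_union_left _ (mem_toFinset.2 (mem_pfs.2 ⟨X, by simp, hq⟩))
    have k1 : ∀ p w, w ∈ l → p <+: w → ¬ p <+: Y → fp X A Y k p ∈ (pfs [X]).toFinset ∪
        ((pfs l).toFinset \ (pfs [Y]).toFinset).image (fp X A Y k) := fun p w hw h1 h2 =>
      Finset.mem_union_right _ (Finset.mem_image_of_mem _ (Finset.mem_sdiff.2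
        ⟨mem_toFinset.2 (mem_pfs.2 ⟨w, hw, h1⟩), by simpa [mem_pfs] using h2⟩))
    have k2 : ∀ r w, w ∈ l → Y <+: w → r <+: w.drop Y.length → X ++ r ∈ (pfs [X]).toFinset ∪
        ((pfs l).toFinset \ (pfs [Y]).toFinset).image (fp X A Y k) := by
      rintro r w hw ⟨t, rfl⟩ h2
      rw [drop_left] at h2
      by_cases hr : r = []
      · exact k0 _ (by simp [hr])
      have := k1 (Y ++ r) _ hw ((prefix_append_right_inj _).2 h2) (fun h3 => hr (by
        have := h3.length_le
        rw [length_append] at this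
        exact length_eq_zero_iff.1 (by omega)))
      rwa [fp, if_pos (prefix_append _ _), drop_left] at this
    replace hq := mem_pfs.1 (mem_toFinset.1 hq)
    obtain ⟨w, hw, hq⟩ := hq
    rcases mem_cons.1 hw with rfl | hw
    · exact k0 q hq
    obtain ⟨z, hz, rfl⟩ := mem_map.1 hw
    rcases pre_app.1 hq with hq | ⟨r, rfl, hr⟩
    · exact k0 q hq
    by_cases h1 : Y <+: z
    · rw [if_pos h1] at hr
      exact k2 r z (hl hz) h1 hr
    have h2 := h.mov_pre hY z
    rw [if_neg h1, mov_eq, drop_append_of_le_length h2.length_le] at hr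
    have k3 : ∀ r, r <+: (A.take (dep A Y k (lcp z Y))).drop Y.length → r <+: A.drop Y.length :=
      fun r hr => hr.trans (by rw [drop_take]; exact take_prefix _ _)
    rcases pre_app.1 hr with hr | ⟨t, rfl, ht⟩
    · exact k2 r A hA hY (k3 r hr)
    by_cases h3 : t = []
    · exact k2 _ A hA hY (k3 _ (by simp [h3]))
    have h4 := lcp_cut ht
    have := k1 _ z (hl hz) h4.1 (fun h5 => h3 (by
      have := le_lcp (prefix_refl _) h5
      rw [h4.2, length_append, length_take, min_eq_left (lcp_le z Y)] at this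
      exact length_eq_zero_iff.1 (by omega)))
    rwa [fp, if_neg (fun h5 => h1 (h5.trans h4.1)), mov_cut ht,
      drop_append_of_le_length h2.length_le] at this
  have h2 := (Finset.card_le_card h1).trans (Finset.card_union_le _ _)
  have h3 := Finset.card_image_le (s := (pfs l).toFinset \ (pfs [Y]).toFinset) (f := fp X A Y k)
  have h4 := Finset.card_sdiff_add_card_eq_card h0
  have h5 := nodes_one X
  have h6 := nodes_one Y
  unfold nodes at *
  omega

lemma mov_mem {c : α} (h : c ∈ mov A Y k z) : c ∈ A ∨ c ∈ z :=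
  (mem_append.1 h).imp mem_of_mem_take mem_of_mem_drop

lemma fm_mem {c : α} (h : c ∈ fm A Y k z) : c ∈ A ∨ c ∈ z := by
  unfold fm at h
  split_ifs at h
  · exact mov_mem h
  · exact Or.inr h

lemma fp_mem {c : α} (h : c ∈ fp X A Y k z) : c ∈ X ∨ c ∈ A ∨ c ∈ z := by
  refine (mem_append.1 h).imp id fun h => ?_
  have h := mem_of_mem_drop h
  split_ifs at h
  · exact Or.inr h
  · exact mov_mem h

end Vale.Agent.P333
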