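import Mathlib

/-! Structured stack programs and their compilation to Mathlib's `FinTM2`. -/

namespace Vale.Agent.P333

open Function Turing

/-- Structured programs over stacks of bits indexed by naturals. -/
inductive Prog : Type
  | push (r : ℕ) (b : Bool) : Prog
  | pop (r : ℕ) : Prog
  | seq (p q : Prog) : Prog
  | loop (r : ℕ) (p : Prog) : Prog
  | ite (r : ℕ) (p q : Prog) : Prog

/-- States: one stack per register. -/
abbrev St : Type := ℕ → List Bool

/-- Big-step semantics with exact cost. -/
inductive Run : Prog → St → St → ℕ → Prop
  | push (r : ℕ) (b : Bool) (S : St) : Run (.push r b) S (update S r (b :: S r)) 1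
  | pop (r : ℕ) (S : St) : Run (.pop r) S (update S r (S r).tail) 1
  | seq {p q : Prog} {S S' S'' : St} {m n : ℕ} :
      Run p S S' m → Run q S' S'' n → Run (.seq p q) S S'' (m + n)
  | stop {r : ℕ} {p : Prog} {S : St} : (S r).head? ≠ some true → Run (.loop r p) S S 1
  | go {r : ℕ} {p : Prog} {S S' S'' : St} {m n : ℕ} : (S r).head? = some true →
      Run p S S' m → Run (.loop r p) S' S'' n → Run (.loop r p) S S'' (1 + m + n)
  | yes {r : ℕ} {p q : Prog} {S S' : St} {m : ℕ} : (S r).head? = some true →
      Run p S S' m → Run (.ite r p q) S S' (m + 1)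
  | no {r : ℕ} {p q : Prog} {S S' : St} {m : ℕ} : (S r).head? ≠ some true →
      Run q S S' m → Run (.ite r p q) S S' (m + 1)

/-- Labels of the compiled program. -/
def Lab : Prog → Type
  | .push _ _ => Unit
  | .pop _ => Unit
  | .seq p q => Lab p ⊕ Lab q
  | .loop _ p => Option (Lab p)
  | .ite _ p q => Option (Lab p ⊕ Lab q)

/-- The labels form a finite type. -/
@[reducible] def labFin : (p : Prog) → Fintype (Lab p)
  | .push _ _ => inferInstanceAs (Fintype Unit)
  | .pop _ => inferInstanceAs (Fintype Unit)
  | .seq p q => @instFintypeSum (Lab p) (Lab q) (labFin p) (labFin q)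
  | .loop _ p => @instFintypeOption (Lab p) (labFin p)
  | .ite _ p q => @instFintypeOption _ (@instFintypeSum (Lab p) (Lab q) (labFin p) (labFin q))

/-- Entry label. -/
def entry : (p : Prog) → Lab p
  | .push _ _ => ()
  | .pop _ => ()
  | .seq p _ => Sum.inl (entry p)
  | .loop _ _ => none
  | .ite _ _ _ => none

/-- A strict bound for the registers used. -/
def bound : Prog → ℕ
  | .push r _ => r + 1
  | .pop r => r + 1
  | .seq p q => max (bound p) (bound q)
  | .loop r p => max (r + 1) (bound p)
  | .ite r p q => max (r + 1) (max (bound p) (bound q))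

/-- Code for each label. -/
def code (R : ℕ) [NeZero R] {Λ : Type} : (p : Prog) → (Lab p → Λ) → Λ → Lab p →
    TM2.Stmt (fun _ : Fin R => Bool) Λ Bool
  | .push r b, _, next, _ => .push (Fin.ofNat R r) (fun _ => b) (.goto fun _ => next)
  | .pop r, _, next, _ => .pop (Fin.ofNat R r) (fun v _ => v) (.goto fun _ => next)
  | .seq p q, emb, _, Sum.inl l =>
      code R p (fun x => emb (Sum.inl x)) (emb (Sum.inr (entry q))) l
  | .seq _ q, emb, next, Sum.inr l => code R q (fun x => emb (Sum.inr x)) next l
  | .loop r p, emb, next, none =>
      .peek (Fin.ofNat R r) (fun _ x => decide (x = some true))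
        (.branch id (.load (fun _ => false) (.goto fun _ => emb (some (entry p))))
          (.load (fun _ => false) (.goto fun _ => next)))
  | .loop _ p, emb, _, some l => code R p (fun x => emb (some x)) (emb none) l
  | .ite r p q, emb, _, none =>
      .peek (Fin.ofNat R r) (fun _ x => decide (x = some true))
        (.branch id (.load (fun _ => false) (.goto fun _ => emb (some (Sum.inl (entry p)))))
          (.load (fun _ => false) (.goto fun _ => emb (some (Sum.inr (entry q))))))
  | .ite _ p _, emb, next, some (Sum.inl l) => code R p (fun x => emb (some (Sum.inl x))) next l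
  | .ite _ _ q, emb, next, some (Sum.inr l) => code R q (fun x => emb (some (Sum.inr x))) next l

/-- Restriction of a state to the first `R` registers. -/
def res (R : ℕ) (S : St) : Fin R → List Bool := fun k => S k

lemma res_ofNat (R : ℕ) [NeZero R] (S : St) {r : ℕ} (h : r < R) :
    res R S (Fin.ofNat R r) = S r := by
  simp [res, Fin.ofNat, Nat.mod_eq_of_lt h]

lemma res_update (R : ℕ) [NeZero R] (S : St) {r : ℕ} (h : r < R) (x : List Bool) :
    update (res R S) (Fin.ofNat R r) x = res R (update S r x) := by
  funext k
  by_cases hk : k = Fin.ofNat R r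
  · subst hk
    rw [update_self, res_ofNat R _ h, update_self]
  · rw [update_of_ne hk]
    have : (k : ℕ) ≠ r := fun e => hk (Fin.ext (by simp [Fin.ofNat, Nat.mod_eq_of_lt h, e]))
    simp [res, update_of_ne this]

theorem sim (R : ℕ) [NeZero R] {Λ : Type} (M : Λ → TM2.Stmt (fun _ : Fin R => Bool) Λ Bool)
    {p : Prog} {S S' : St} {t : ℕ} (h : Run p S S' t) :
    ∀ (emb : Lab p → Λ) (next : Λ), bound p ≤ R → (∀ l, M (emb l) = code R p emb next l) →
      (flip bind (TM2.step M))^[t] (some ⟨some (emb (entry p)), false, res R S⟩) =
        some ⟨some next, false, res R S'⟩ := by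
  induction h with
  | push r b S =>
    intro emb next hb hM
    have hr : r < R := hb
    simp only [iterate_one, flip, bind, Option.bind, TM2.step, hM, code, TM2.stepAux]
    rw [res_ofNat R S hr, res_update R S hr]
  | pop r S =>
    intro emb next hb hM
    have hr : r < R := hb
    simp only [iterate_one, flip, bind, Option.bind, TM2.step, hM, code, TM2.stepAux]
    rw [res_ofNat R S hr, res_update R S hr]
  | @seq p q S S' S'' m n _ _ ih1 ih2 =>
    intro emb next hb hM
    have hb1 : bound p ≤ R := le_trans (le_max_left _ _) hb
    have hb2 : bound q ≤ R := le_trans (le_max_right _ _) hb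
    rw [add_comm, iterate_add_apply]
    have e1 := ih1 (fun x => emb (Sum.inl x)) (emb (Sum.inr (entry q))) hb1
      (fun l => hM (Sum.inl l))
    have e2 := ih2 (fun x => emb (Sum.inr x)) next hb2 (fun l => hM (Sum.inr l))
    exact (congrArg _ e1).trans e2
  | @stop r p S hs =>
    intro emb next hb hM
    have hr : r < R := le_trans (le_max_left _ _) hb
    have e : M (emb (entry (.loop r p))) = code R (.loop r p) emb next none := hM _
    simp only [iterate_one, flip, bind, Option.bind, TM2.step, e, code, TM2.stepAux]
    rw [res_ofNat R S hr]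
    simp [hs]
  | @go r p S S' S'' m n hs _ _ ih1 ih2 =>
    intro emb next hb hM
    have hr : r < R := le_trans (le_max_left _ _) hb
    have hb1 : bound p ≤ R := le_trans (le_max_right _ _) hb
    have e : M (emb (entry (.loop r p))) = code R (.loop r p) emb next none := hM _
    have e0 : (flip bind (TM2.step M))^[1] (some ⟨some (emb (entry (.loop r p))), false, res R S⟩)
        = some ⟨some (emb (some (entry p))), false, res R S⟩ := by
      simp only [iterate_one, flip, bind, Option.bind, TM2.step, e, code, TM2.stepAux]
      rw [res_ofNat R S hr]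
      simp [hs]
    have e1 := ih1 (fun x => emb (some x)) (emb none) hb1 (fun l => hM (some l))
    have e2 := ih2 emb next hb hM
    rw [show 1 + m + n = n + (m + 1) by ring, iterate_add_apply, iterate_add_apply, e0]
    exact (congrArg _ e1).trans e2
  | @yes r p q S S' m hs _ ih =>
    intro emb next hb hM
    have hr : r < R := le_trans (le_max_left _ _) hb
    have hb1 : bound p ≤ R := le_trans (le_max_left _ _) (le_trans (le_max_right _ _) hb)
    have e : M (emb (entry (.ite r p q))) = code R (.ite r p q) emb next none := hM _
    have e0 : (flip bind (TM2.step M))^[1] (some ⟨some (emb (entry (.ite r p q))), false, res R S⟩)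
        = some ⟨some (emb (some (Sum.inl (entry p)))), false, res R S⟩ := by
      simp only [iterate_one, flip, bind, Option.bind, TM2.step, e, code, TM2.stepAux]
      rw [res_ofNat R S hr]
      simp [hs]
    rw [iterate_add_apply, e0]
    exact ih (fun x => emb (some (Sum.inl x))) next hb1 (fun l => hM (some (Sum.inl l)))
  | @no r p q S S' m hs _ ih =>
    intro emb next hb hM
    have hr : r < R := le_trans (le_max_left _ _) hb
    have hb1 : bound q ≤ R := le_trans (le_max_right _ _) (le_trans (le_max_right _ _) hb)
    have e : M (emb (entry (.ite r p q))) = code R (.ite r p q) emb next none := hM _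
    have e0 : (flip bind (TM2.step M))^[1] (some ⟨some (emb (entry (.ite r p q))), false, res R S⟩)
        = some ⟨some (emb (some (Sum.inr (entry q)))), false, res R S⟩ := by
      simp only [iterate_one, flip, bind, Option.bind, TM2.step, e, code, TM2.stepAux]
      rw [res_ofNat R S hr]
      simp [hs]
    rw [iterate_add_apply, e0]
    exact ih (fun x => emb (some (Sum.inr x))) next hb1 (fun l => hM (some (Sum.inr l)))

/-- The machine of a program. -/
def machine (P : Prog) : FinTM2 where
  K := Fin (bound P + 2)
  k₀ := 0
  k₁ := 1
  Γ _ := Bool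
  Λ := Option (Lab P)
  main := some (entry P)
  ΛFin := @instFintypeOption (Lab P) (labFin P)
  σ := Bool
  initialState := false
  m l := match l with
    | none => .halt
    | some l => code (bound P + 2) P some none l

theorem exists_tm {α β : Type} (P : Prog) (ea : α → List Bool) (eb : β → List Bool) (f : α → β)
    (time : Polynomial ℕ)
    (h : ∀ a, ∃ t ≤ time.eval (ea a).length,
      Run P (update (fun _ => []) 0 (ea a)) (update (fun _ => []) 1 (eb (f a))) t) :
    ∃ M : TM2ComputableInPolyTime ea eb f, ∀ k, Finite (M.tm.Γ k) := by
  choose t ht hrun using h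
  refine ⟨⟨⟨machine P, Equiv.refl _, Equiv.refl _⟩, time + 1, fun a => ⟨⟨t a + 1, ?_⟩, ?_⟩⟩,
    fun _ => (inferInstance : Finite Bool)⟩
  · have e := sim (bound P + 2) (machine P).m (hrun a) some none (by omega) (fun _ => rfl)
    have i0 : initList (machine P) (List.map (Equiv.refl Bool).invFun (ea a)) =
        ⟨some (some (entry P)), false, res (bound P + 2) (update (fun _ => []) 0 (ea a))⟩ := by
      unfold initList
      congr 1
      funext k
      by_cases hk : k = (0 : Fin (bound P + 2))
      · subst hk
        simp [res, machine]
        rfl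
      · have hk' : (k : Fin (bound P + 2)).val ≠ 0 := fun e => hk (Fin.ext e)
        refine (dif_neg hk).trans ?_
        simp [res, update_of_ne hk']
        rfl
    have i1 : haltList (machine P) (List.map (Equiv.refl Bool).invFun (eb (f a))) =
        ⟨none, false, res (bound P + 2) (update (fun _ => []) 1 (eb (f a)))⟩ := by
      unfold haltList
      congr 1
      funext k
      by_cases hk : k = (1 : Fin (bound P + 2))
      · subst hk
        simp [res, machine]
        rfl
      · have hk' : (k : Fin (bound P + 2)).val ≠ 1 := fun e => hk (Fin.ext e)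
        refine (dif_neg hk).trans ?_
        simp [res, update_of_ne hk']
        rfl
    rw [iterate_succ_apply', Option.map_some]
    erw [i0, i1, e]
    rfl
  · simp only [Polynomial.eval_add, Polynomial.eval_one]
    exact Nat.add_le_add_right (ht a) 1

end Vale.Agent.P333
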