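import Vale.Agent.P333.Ops
import Vale.Agent.P333.Corr

/-! The algorithm runs in polynomial time. -/

namespace Vale.Agent.P333

open List

variable {α δ : Type} [Enc α] [Enc δ] [PEq δ] [DecidableEq δ]

@[fun_prop] lemma PT.lcp {f g : α → List δ} (hf : PT f) (hg : PT g) :
    PT fun a => lcp (f a) (g a) := PT.findG hf.length (by fun_prop)

@[fun_prop] lemma PT.ov {f g : α → List δ} (hf : PT f) (hg : PT g) :
    PT fun a => ov (f a) (g a) := PT.findG (by fun_prop) (by fun_prop)

@[fun_prop] lemma PT.sov {f g : α → List δ} (hf : PT f) (hg : PT g) :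
    PT fun a => sov (f a) (g a) := PT.findG hf.length (by fun_prop)

@[fun_prop] lemma PT.pre {f : α → List (List δ)} (hf : PT f) : PT fun a => pre (f a) :=
  PT.foldA hf (by fun_prop) (by fun_prop) (t := fun q => sz q.2 + 1) (by fun_prop)
    fun a b x => by
      have := sz_sub (filter_sublist (p := fun u => ¬ u <:+: x) (l := b))
      dsimp only
      split_ifs
      · omega
      · rw [sz_cons]; omega

omit [DecidableEq δ] in
@[fun_prop] lemma PD.tight {e : α → Ent δ} {L : α → List (List δ)} (he : PT e) (hL : PT L) :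
    PD fun a => tight (e a) (L a) := by
  unfold P333.tight
  fun_prop

@[fun_prop] lemma PT.ext {E : α → List (Ent δ)} {L : α → List (List δ)} (hE : PT E) (hL : PT L) :
    PT fun a => ext (E a) (L a) := by
  unfold P333.ext
  fun_prop

@[fun_prop] lemma PT.cl {E : α → List (Ent δ)} {L : α → List (List δ)} (hE : PT E) (hL : PT L) :
    PT fun a => cl (E a) (L a) := by
  refine PT.iterA hE.length hL (by fun_prop) ((PB.sz hE).add (PB.const 1)) fun a b => ?_
  unfold P333.ext
  rcases h : (E a).filter fun e => e.1 ∉ b ∧ P333.tight e b with _ | ⟨e, r⟩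
  · rw [h]; simp
  · have h1 := sz_mem (mem_filter.1 (h ▸ mem_cons_self (a := e) (l := r))).1
    have h2 := sz_append b e.2.2
    have h3 := sz_pair e.1 e.2
    have h4 := sz_pair e.2.1 e.2.2
    rw [h]
    simp only [take_succ_cons, take_zero, flatMap_cons, flatMap_nil, append_nil, Prod.mk.eta] at *
    omega

@[fun_prop] lemma PT.free {E : α → List (Ent δ)} (hE : PT E) : PT fun a => free (E a) := by
  refine PT.take (by fun_prop) (PT.filter hE (PT.decide (PD.all (by fun_prop) ?_)))
  refine PD.congr (PD.or (PD.not ?_) ?_) fun _ => imp_iff_not_or.symm <;> fun_prop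

lemma pt_estep : PT (estep (α := δ)) := by
  unfold estep
  exact PT.ite (PD.all (by fun_prop) (by fun_prop)) (by fun_prop)
    (PT.ite (PD.isNil (by fun_prop)) (by fun_prop) (by fun_prop))

omit [PEq δ] [DecidableEq δ] in
lemma flat_le (L : List (List δ)) : L.flatten.length ≤ sz L := by
  induction L with
  | nil => simp
  | cons x L ih =>
    have := length_le_sz x
    rw [flatten_cons, length_append, sz_cons]
    omega

@[fun_prop] lemma PT.order {f : α → List (List δ)} (hf : PT f) : PT fun a => order (f a) := by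
  refine PT.cl (PT.iter0 (by fun_prop) (by fun_prop) pt_estep
    (t := fun a => sz (f a) * (3 * sz (f a) + (sz (f a) * (sz (f a) + 1) + 1) + 3 + 1) + 1)
    (by fun_prop) fun a i _ => ?_) (by fun_prop)
  obtain ⟨g, sol, e, h⟩ := ESt.iter (S := f a) (ρ := fun _ => 0) (o := fun _ => 0)
    (fun _ _ => by simp) i
  rw [e]
  have h0 := length_le_sz (f a)
  refine (sz_list fun x hx => ?_).trans
    (Nat.add_le_add_right (Nat.mul_le_mul_right _ (by simpa [tab] using h0)) _)
  obtain ⟨b, hb, rfl⟩ := mem_map.1 hx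
  have h1 := sz_mem hb
  have h2 := (h.le b hb).trans (length_le_sz b)
  have h3 := (sz_list fun x hx => sz_mem (h.sub b hb hx)).trans
    (Nat.add_le_add_right (Nat.mul_le_mul_right _ ((h.gc hb).len.trans h0)) _)
  rw [sz_pair, sz_pair, sz_nat]
  omega

omit [Enc δ] [PEq δ] [DecidableEq δ] in
lemma cost_triv (L : List (List δ)) : ∀ L0, Cost L0 L L.flatten.length := by
  induction L with
  | nil => exact fun _ => trivial
  | cons b L ih => exact fun L0 => ⟨0, _, by simp, ⟨[], by simp, by simp⟩, ih _, by simp⟩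

omit [PEq δ] in
lemma sz_build (L : List (List δ)) {N : ℕ} (hN : sz L ≤ N) :
    sz (L.foldl bstep []) ≤ N * (N + (N * (N + 1) + 1) + 1 + 1) + 1 := by
  obtain ⟨b1, b2, b3⟩ := build (fun c => sz c ≤ N) L [] [] _ (cost_triv L _) (by simp) (by simp)
    (by simp) fun b hb c hc => (sz_mem hc).trans ((sz_mem hb).trans hN)
  rw [map_nil, append_nil] at b3
  rw [map_nil, nodes_one] at b1
  have h0 := b3.length_eq
  rw [length_map] at h0
  refine (sz_list fun q hq => ?_).trans (Nat.add_le_add_right (Nat.mul_le_mul_right _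
    (h0.le.trans ((length_le_sz L).trans hN))) _)
  have h1 := sz_mem (b3.subset (mem_map_of_mem hq))
  have h2 := len_lt_nodes (l := [] :: (L.foldl bstep []).map fun q => q.2)
    (mem_cons_of_mem _ (mem_map_of_mem hq))
  have h3 := flat_le L
  have h4 := (sz_list (b2 q hq).2).trans (Nat.add_le_add_right (Nat.mul_le_mul_right _
    (show q.2.length ≤ N by simp only [length_nil] at b1; omega)) _)
  have h5 := sz_pair q.1 q.2
  simp only [Prod.mk.eta] at h5
  omega

@[fun_prop] lemma PT.tree {f : α → List (List δ)} (hf : PT f) : PT fun a => tree (f a) :=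
  PT.foldl hf.order (by fun_prop) (by unfold bstep; fun_prop) (by have := hf.order; fun_prop)
    fun a i => sz_build _ (sz_sub (take_sublist i (P333.order (f a))))

omit [PEq δ] [DecidableEq δ] in
@[fun_prop] lemma PT.lastS {p : α → List δ} {l : α → List (Item δ)} (hp : PT p) (hl : PT l) :
    PT fun a => lastS (p a) (l a) := by
  unfold P333.lastS
  fun_prop

omit [PEq δ] [DecidableEq δ] in
@[fun_prop] lemma PT.headS {l : α → List (Item δ)} (hl : PT l) : PT fun a => headS (l a) := by
  unfold P333.headS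
  fun_prop

omit [PEq δ] [DecidableEq δ] in
@[fun_prop] lemma PT.setH {p : α → ℕ} {l : α → List (Item δ)} (hp : PT p) (hl : PT l) :
    PT fun a => setH (p a) (l a) := by
  unfold P333.setH
  fun_prop

lemma pt_gstep : PT (gstep (α := δ)) := by
  unfold gstep gcand
  fun_prop

lemma sz_lists {C : List (List α)} {B n : ℕ} (h1 : ∀ c ∈ C, c ≠ []) (h2 : ∀ x ∈ C.flatten, sz x ≤ B)
    (h3 : C.flatten.length ≤ n) : sz C ≤ n * (n * (B + 1) + 1 + 1) + 1 := by
  have h4 : C.length ≤ C.flatten.length := by
    rw [length_flatten]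
    simpa using card_nsmul_le_sum (C.map length) 1 fun x hx => by
      obtain ⟨c, hc, rfl⟩ := mem_map.1 hx
      exact length_pos_iff.2 (h1 c hc)
  refine (sz_list fun c hc => ?_).trans
    (Nat.add_le_add_right (Nat.mul_le_mul_right _ (h4.trans h3)) _)
  exact (sz_list fun x hx => h2 x (mem_flatten.2 ⟨c, hc, hx⟩)).trans (Nat.add_le_add_right
    (Nat.mul_le_mul_right _ ((sublist_flatten_of_mem hc).length_le.trans h3)) _)

lemma PT.cover {W : α → List (List δ × List δ)} (hW : PT W) (h : ∀ a, ∀ q ∈ W a, q.1 ≠ []) :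
    PT fun a => cover (W a) := by
  refine PT.snd (PT.iter0 hW.length (by fun_prop) pt_gstep
    (t := fun a => sz (W a) * (sz (W a) * (3 * sz (W a) + 2 + 1) + 1 + 1) + 1 + 2) (by fun_prop)
    fun a i _ => ?_)
  have g : Good ((W a).map fun q => q.1) ((W a).map fun q => q.1) 0 :=
    ⟨(W a).map fun q => (q.1, q.1, 0), by rw [map_map]; rfl, by rw [map_map]; rfl, fun t ht => by
      obtain ⟨q, hq, rfl⟩ := mem_map.1 ht
      exact ⟨length_pos_iff.2 (h a q hq), by simp, by simp⟩, by simp⟩
  have h1 := (GInv.iter (h a) (G := (_, [])) (GInv.init g le_rfl) i).1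
  generalize (gstep (α := δ))^[i] _ = G at *
  obtain ⟨H, C⟩ := G
  have h2 := sz_append H C
  have h3 := h1.per.length_eq
  rw [length_map] at h3
  have := sz_lists (C := H ++ C) (B := 3 * sz (W a) + 2) (n := sz (W a)) (fun c hc => by
    rcases mem_append.1 hc with hc | hc
    · obtain ⟨x, l, rfl, _⟩ := h1.chn c hc
      simp
    · exact (h1.cyc c hc).1) (fun x hx => ?_) (h3.le.trans (length_le_sz _))
  · rw [sz_pair]; omega
  have a1 := sz_mem (h1.per.subset (mem_map_of_mem hx))
  have a2 : x.2.1 ≤ x.1.length := by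
    obtain ⟨c, hc, hx⟩ := mem_flatten.1 hx
    rcases mem_append.1 hc with hc | hc
    · obtain ⟨y, l, rfl, e, e'⟩ := h1.chn c hc
      rcases mem_cons.1 hx with rfl | hx
      · omega
      · exact e'.le x hx
    · exact (h1.cyc c hc).2.le x hx
  have a3 := length_le_sz x.1
  obtain ⟨s, o, z⟩ := x
  simp only [sz_pair, sz_nat] at *
  omega

@[fun_prop] lemma PT.mov {A Y z : α → List δ} {k : α → ℕ} (hA : PT A) (hY : PT Y) (hk : PT k)
    (hz : PT z) : PT fun a => mov (A a) (Y a) (k a) (z a) :=
  PT.append (PT.take (PT.findG hA.length (by fun_prop)) hA) (by fun_prop)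

@[fun_prop] lemma PT.fm {A Y z : α → List δ} {k : α → ℕ} (hA : PT A) (hY : PT Y) (hk : PT k)
    (hz : PT z) : PT fun a => fm (A a) (Y a) (k a) (z a) := by
  unfold P333.fm
  fun_prop

@[fun_prop] lemma PT.fp {X A Y z : α → List δ} {k : α → ℕ} (hX : PT X) (hA : PT A) (hY : PT Y)
    (hk : PT k) (hz : PT z) : PT fun a => fp (X a) (A a) (Y a) (k a) (z a) := by
  unfold P333.fp
  fun_prop

omit [PEq δ] [DecidableEq δ] in
lemma PT.ups {F : α → List δ → List δ} {C : α → List (List (Item δ))}
    (hF : PT fun p : α × List δ => F p.1 p.2) (hC : PT C) :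
    PT fun a => (C a).map fun c => c.map (up (F a)) := by
  have h : PT fun p : (α × List (Item δ)) × Item δ => F p.1.1 p.2.2.2 :=
    hF.comp (f := fun p : (α × List (Item δ)) × Item δ => (p.1.1, p.2.2.2)) (by fun_prop)
  exact PT.map hC (PT.map (by fun_prop) (PT.pair (by fun_prop) (PT.pair (by fun_prop) h)))

lemma PT.act {X Y : α → List δ} {b c : α → Item δ} {M : α → List (Item δ)}
    {C : α → List (List (Item δ))} {k : α → ℕ} (hX : PT X) (hb : PT b) (hc : PT c) (hM : PT M)
    (hC : PT C) (hY : PT Y) (hk : PT k) :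
    PT fun a => act (X a) (b a) (c a) (M a) (C a) (Y a) (k a) := by
  have h : PT fun a => (b a).2.2 ++ (M a).flatMap fun x => x.1.drop x.2.1 := by fun_prop
  exact PT.ite (by fun_prop)
    (h.pair (PT.ups (PT.fp (h.comp PT.id.fst) (by fun_prop) (by fun_prop) (by fun_prop)
      (by fun_prop)) hC)) (hX.pair (PT.ups (by fun_prop) (by fun_prop)))

lemma PT.go {X : α → List δ} {c : α → Item δ × List (Item δ) × List (List (Item δ))}
    (hX : PT X) (hc : PT c) : PT fun a => go (X a) (c a) := by
  unfold P333.go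
  exact PT.act hX hc.fst (hc.snd.fst.getLastD hc.fst) hc.snd.fst hc.snd.snd (by fun_prop)
    (by fun_prop)

omit [PEq δ] [DecidableEq δ] in
lemma PT.mcand {C : α → List (List (Item δ))} (hC : PT C) : PT fun a => mcand (C a) := by
  unfold P333.mcand
  fun_prop

lemma pt_mstep : PT (mstep (α := δ)) := by
  unfold mstep
  exact PT.ite (PD.isNil PT.id.snd) PT.id
    (PT.go PT.id.fst (PT.amin (PT.mcand PT.id.snd) (PT.const _) (by fun_prop)))

theorem pt_alg : PT (alg (α := δ)) := by
  have hp : PT fun S : List (List δ) => pre S := by fun_prop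
  have st := fun S : List (List δ) => start (T := (pre S).flatten) (pre_spec S).1
    (fun s hs => ((pre_spec S).2.1 s hs).1) fun s hs => infix_of_mem_flatten hs
  have hc : PT fun S : List (List δ) => cover (tree (pre S)) := PT.cover hp.tree fun S q hq => by
    obtain ⟨_, _, b3⟩ := build (fun _ => True) (order (pre S)) [] [] _ (cost_triv _ _) (by simp)
      (by simp) (by simp) (by simp)
    obtain ⟨o1, _⟩ := order_spec (S := pre S) (ρ := fun _ => 0) (o := fun _ => 0)
      (fun _ _ => by simp) (pre_spec S).1.nodup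
    rw [map_nil, append_nil] at b3
    exact ((pre_spec S).2.1 _ ((b3.trans o1).subset (mem_map_of_mem hq))).1
  refine PT.fst (PT.iter0 hp.length (by fun_prop) pt_mstep
    (t := fun S => (2 * sz (pre S) * (sz (pre S) + 1) + 1) + (sz (pre S) * (sz (pre S) *
      (4 * (2 * sz (pre S) * (sz (pre S) + 1) + 1) + 3 + 1) + 1 + 1) + 1) + 1) (by fun_prop)
    fun S i _ => ?_)
  obtain ⟨h1, h2⟩ := (st S).1.iter i
  rw [(st S).2] at h2
  generalize (mstep (α := δ))^[i] _ = s at *
  generalize pre S = S' at *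
  obtain ⟨X, C⟩ := s
  have h3 := flat_le S'
  have h4 := h1.pot
  have key : ∀ z ∈ X :: C.flatten.map fun x => x.2.2, (∀ c ∈ z, c ∈ S'.flatten) →
      sz z ≤ 2 * sz S' * (sz S' + 1) + 1 := fun z hz hc => by
    have := len_lt_nodes hz
    refine (sz_list fun c hc' => ?_).trans (Nat.add_le_add_right (Nat.mul_le_mul_right _
      (by simp only at h4; omega)) _)
    obtain ⟨u, u1, u2⟩ := mem_flatten.1 (hc c hc')
    exact (sz_mem u2).trans (sz_mem u1)
  have a1 := key X (by simp) h1.lt1
  have := sz_lists (C := C) (B := 4 * (2 * sz S' * (sz S' + 1) + 1) + 3) (n := sz S')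
    (fun c hc => (h1.cyc c hc).1) (fun x hx => ?_)
    (h2.trans ((Nat.sub_le _ _).trans (length_le_sz _)))
  · rw [sz_pair]; omega
  have a2 := key _ (mem_cons_of_mem _ (mem_map_of_mem hx)) (h1.lt2 x hx)
  have a3 := sz_sub (h1.suf x hx).1.sublist
  have a4 := length_le_sz x.1
  obtain ⟨c, hc, hx'⟩ := mem_flatten.1 hx
  have a5 := (h1.cyc c hc).2.le x hx'
  obtain ⟨s, o, z⟩ := x
  simp only [sz_pair, sz_nat] at *
  omega

end Vale.Agent.P333
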